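import Vale.Agent.H40.SKDefs

/-!
Generic facts on heat-bath dynamics for a positive probability vector on `Fin n → Bool`.
-/

namespace Vale.Agent.H40.SK

variable {n : ℕ}

/-- flip the spin at site `i` -/
def flipAt (i : Fin n) (x : Fin n → Bool) : Fin n → Bool := Function.update x i (!x i)

lemma flipAt_involutive (i : Fin n) : Function.Involutive (flipAt (n := n) i) := by
  intro x
  unfold flipAt
  simp

lemma sum_flipAt (i : Fin n) (F : (Fin n → Bool) → ℝ) :
    ∑ x, F (flipAt i x) = ∑ x, F x :=
  Equiv.sum_comp (flipAt_involutive i).toPerm F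

lemma sum_split (i : Fin n) (F : (Fin n → Bool) → ℝ) :
    ∑ x, F x = (1 / 2) * ∑ x, (F (Function.update x i true) + F (Function.update x i false)) := by
  have h : ∀ x, F (Function.update x i true) + F (Function.update x i false)
      = F x + F (flipAt i x) := by
    intro x
    unfold flipAt
    cases hx : x i
    · have : Function.update x i false = x := by rw [← hx]; exact Function.update_eq_self i x
      simp [this, add_comm]
    · have : Function.update x i true = x := by rw [← hx]; exact Function.update_eq_self i x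
      simp [this]
  simp_rw [h]
  rw [Finset.sum_add_distrib, sum_flipAt]
  ring

lemma resample_update (μ : (Fin n → Bool) → ℝ) (i : Fin n) (f : (Fin n → Bool) → ℝ)
    (x : Fin n → Bool) (b : Bool) :
    resample μ i f (Function.update x i b) = resample μ i f x := by
  unfold resample
  simp [Function.update_idem]

/-- `f - Q_i f` is orthogonal in `L²(μ)` to functions not depending on the spin at `i`. -/
lemma orth (μ : (Fin n → Bool) → ℝ) (hμ : ∀ x, 0 < μ x) (i : Fin n)
    (f ψ : (Fin n → Bool) → ℝ) (hψ : ∀ x b, ψ (Function.update x i b) = ψ x) :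
    ∑ x, μ x * ψ x * (f x - resample μ i f x) = 0 := by
  rw [sum_split i]
  simp only [resample_update, hψ]
  have : ∀ x, μ (Function.update x i true) * ψ x *
        (f (Function.update x i true) - resample μ i f x) +
      μ (Function.update x i false) * ψ x *
        (f (Function.update x i false) - resample μ i f x) = 0 := by
    intro x
    unfold resample
    have hpos : 0 < μ (Function.update x i true) + μ (Function.update x i false) :=
      add_pos (hμ _) (hμ _)
    field_simp
    ring
  simp [this]

/-- The Dirichlet form as a sum of squared distances to the conditional expectations. -/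
lemma dirichletForm_eq (μ : (Fin n → Bool) → ℝ) (hμ : ∀ x, 0 < μ x)
    (f : (Fin n → Bool) → ℝ) :
    dirichletForm μ f = ∑ i, ∑ x, μ x * (f x - resample μ i f x) ^ 2 := by
  unfold dirichletForm generator
  have h1 : -∑ x, μ x * f x * ∑ i, (resample μ i f x - f x)
      = ∑ i, ∑ x, μ x * f x * (f x - resample μ i f x) := by
    rw [Finset.sum_comm, ← Finset.sum_neg_distrib]
    refine Finset.sum_congr rfl fun x _ => ?_
    rw [Finset.mul_sum, ← Finset.sum_neg_distrib]
    refine Finset.sum_congr rfl fun i _ => ?_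
    ring
  rw [h1]
  refine Finset.sum_congr rfl fun i _ => ?_
  have h2 := orth μ hμ i f (resample μ i f) (fun x b => resample_update μ i f x b)
  have h3 : ∑ x, μ x * f x * (f x - resample μ i f x)
      = ∑ x, μ x * (f x - resample μ i f x) ^ 2
        + ∑ x, μ x * resample μ i f x * (f x - resample μ i f x) := by
    rw [← Finset.sum_add_distrib]
    refine Finset.sum_congr rfl fun x _ => ?_
    ring
  rw [h3, h2, add_zero]

/-- The conditional expectation minimizes the `L²(μ)` distance among functions not depending on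
the spin at `i`. -/
lemma resample_dist_le (μ : (Fin n → Bool) → ℝ) (hμ : ∀ x, 0 < μ x) (i : Fin n)
    (f a : (Fin n → Bool) → ℝ) (ha : ∀ x b, a (Function.update x i b) = a x) :
    ∑ x, μ x * (f x - resample μ i f x) ^ 2 ≤ ∑ x, μ x * (f x - a x) ^ 2 := by
  have h2 := orth μ hμ i f (fun x => resample μ i f x - a x)
    (fun x b => by rw [resample_update, ha])
  have h3 : ∑ x, μ x * (f x - a x) ^ 2
      = ∑ x, μ x * (f x - resample μ i f x) ^ 2
        + ∑ x, μ x * (resample μ i f x - a x) ^ 2
        + 2 * ∑ x, μ x * (resample μ i f x - a x) * (f x - resample μ i f x) := by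
    rw [Finset.mul_sum, ← Finset.sum_add_distrib, ← Finset.sum_add_distrib]
    refine Finset.sum_congr rfl fun x _ => ?_
    ring
  rw [h3, h2]
  have h4 : 0 ≤ ∑ x, μ x * (resample μ i f x - a x) ^ 2 :=
    Finset.sum_nonneg fun x _ => mul_nonneg (hμ x).le (sq_nonneg _)
  linarith

lemma dirichletForm_nonneg (μ : (Fin n → Bool) → ℝ) (hμ : ∀ x, 0 < μ x)
    (f : (Fin n → Bool) → ℝ) : 0 ≤ dirichletForm μ f := by
  rw [dirichletForm_eq μ hμ]
  exact Finset.sum_nonneg fun i _ =>
    Finset.sum_nonneg fun x _ => mul_nonneg (hμ x).le (sq_nonneg _)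

lemma variance_eq (μ : (Fin n → Bool) → ℝ) (h1 : ∑ x, μ x = 1) (f : (Fin n → Bool) → ℝ) :
    variance μ f = ∑ x, μ x * (f x - ∑ y, μ y * f y) ^ 2 := by
  unfold variance
  have key : ∀ m : ℝ, ∑ x, μ x * (f x - m) ^ 2
      = ∑ x, μ x * f x ^ 2 - 2 * m * ∑ x, μ x * f x + m ^ 2 * ∑ x, μ x := by
    intro m
    rw [Finset.mul_sum, Finset.mul_sum, ← Finset.sum_sub_distrib, ← Finset.sum_add_distrib]
    refine Finset.sum_congr rfl fun x _ => ?_
    ring
  rw [key, h1]
  ring

lemma variance_nonneg (μ : (Fin n → Bool) → ℝ) (hμ : ∀ x, 0 < μ x) (h1 : ∑ x, μ x = 1)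
    (f : (Fin n → Bool) → ℝ) : 0 ≤ variance μ f := by
  rw [variance_eq μ h1]
  exact Finset.sum_nonneg fun x _ => mul_nonneg (hμ x).le (sq_nonneg _)

/-- The spectral gap is at most every Rayleigh quotient. -/
lemma spectralGap_le (μ : (Fin n → Bool) → ℝ) (hμ : ∀ x, 0 < μ x) (h1 : ∑ x, μ x = 1)
    (f : (Fin n → Bool) → ℝ) (hf : variance μ f ≠ 0) :
    spectralGap μ ≤ dirichletForm μ f / variance μ f := by
  unfold spectralGap
  refine csInf_le ⟨0, ?_⟩ ⟨f, hf, rfl⟩
  rintro r ⟨h, _, rfl⟩
  exact div_nonneg (dirichletForm_nonneg μ hμ h) (variance_nonneg μ hμ h1 h)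

end Vale.Agent.H40.SK
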