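import Vale.Agent.H40.SKDefs

/-!
The continuous-time heat-bath semigroup `P_t = exp(t L)`, its kernel, and the total variation
distance to equilibrium.
-/

namespace Vale.Agent.H40.SK

variable {n : ℕ}

lemma generator_isLinear (μ : (Fin n → Bool) → ℝ) : IsLinearMap ℝ (generator μ) := by
  constructor
  · intro f g
    funext x
    simp only [generator, resample, Pi.add_apply]
    rw [← Finset.sum_add_distrib]
    refine Finset.sum_congr rfl fun i _ => ?_
    ring
  · intro c f
    funext x
    simp only [generator, resample, Pi.smul_apply, smul_eq_mul]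
    rw [Finset.mul_sum]
    refine Finset.sum_congr rfl fun i _ => ?_
    ring

/-- The generator `L` of heat-bath dynamics as a continuous linear operator on the
(finite-dimensional) space of real functions of the configuration. -/
noncomputable def genCLM (μ : (Fin n → Bool) → ℝ) :
    ((Fin n → Bool) → ℝ) →L[ℝ] ((Fin n → Bool) → ℝ) :=
  LinearMap.toContinuousLinearMap (IsLinearMap.mk' (generator μ) (generator_isLinear μ))

/-- The transition kernel of the continuous-time heat-bath dynamics at time `t`:
`P_t(x, y) = (exp(t L) 1_y)(x)`, with the operator exponential of `t L`. -/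
noncomputable def heatKernel (μ : (Fin n → Bool) → ℝ) (t : ℝ) (x y : Fin n → Bool) : ℝ :=
  NormedSpace.exp (t • genCLM μ) (Pi.single y 1) x

/-- Total variation distance between `P_t(x, ·)` and `μ`. -/
noncomputable def tvDist (μ : (Fin n → Bool) → ℝ) (t : ℝ) (x : Fin n → Bool) : ℝ :=
  (1 / 2) * ∑ y : Fin n → Bool, |heatKernel μ t x y - μ y|

end Vale.Agent.H40.SK
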