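import Vale.Agent.H40.MixDefs
import Vale.Agent.H40.Glauber

namespace Vale.Agent.H40.SK

open NormedSpace

variable {n : ℕ}

lemma genCLM_apply (μ : (Fin n → Bool) → ℝ) (f : (Fin n → Bool) → ℝ) :
    genCLM μ f = generator μ f := rfl

/-- the semigroup `P_t f = exp(t L) f` -/
noncomputable def heat (μ : (Fin n → Bool) → ℝ) (t : ℝ) (f : (Fin n → Bool) → ℝ) :
    (Fin n → Bool) → ℝ :=
  exp (t • genCLM μ) f

lemma heat_zero (μ : (Fin n → Bool) → ℝ) (f : (Fin n → Bool) → ℝ) : heat μ 0 f = f := by
  unfold heat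
  rw [zero_smul, exp_zero]
  rfl

lemma heat_add (μ : (Fin n → Bool) → ℝ) (s t : ℝ) (f : (Fin n → Bool) → ℝ) :
    heat μ (s + t) f = heat μ s (heat μ t f) := by
  unfold heat
  let _ : NormedAlgebra ℚ (((Fin n → Bool) → ℝ) →L[ℝ] ((Fin n → Bool) → ℝ)) :=
    .restrictScalars ℚ ℝ _
  rw [add_smul, exp_add_of_commute ((Commute.refl (genCLM μ)).smul_left s |>.smul_right t)]
  rfl

lemma heat_eq_sum (μ : (Fin n → Bool) → ℝ) (t : ℝ) (f : (Fin n → Bool) → ℝ)
    (x : Fin n → Bool) :
    heat μ t f x = ∑ y, heatKernel μ t x y * f y := by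
  have hf : f = ∑ y, f y • (Pi.single y 1 : (Fin n → Bool) → ℝ) := by
    funext z
    simp [Finset.sum_apply, Pi.single_apply]
  unfold heat heatKernel
  conv_lhs => rw [hf]
  rw [map_sum, Finset.sum_apply]
  refine Finset.sum_congr rfl fun y _ => ?_
  rw [map_smul, Pi.smul_apply, smul_eq_mul, mul_comm]

lemma hasDerivAt_heat (μ : (Fin n → Bool) → ℝ) (f : (Fin n → Bool) → ℝ) (t : ℝ) :
    HasDerivAt (fun s => heat μ s f) (generator μ (heat μ t f)) t := by
  have h := hasDerivAt_exp_smul_const' (𝕂 := ℝ) (genCLM μ) t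
  have h2 := (ContinuousLinearMap.apply ℝ ((Fin n → Bool) → ℝ) f).hasFDerivAt.comp_hasDerivAt t h
  exact h2

lemma hasDerivAt_heat' (μ : (Fin n → Bool) → ℝ) (f : (Fin n → Bool) → ℝ) (t : ℝ) :
    HasDerivAt (fun s => heat μ s f) (heat μ t (generator μ f)) t := by
  have h := hasDerivAt_exp_smul_const (𝕂 := ℝ) (genCLM μ) t
  have h2 := (ContinuousLinearMap.apply ℝ ((Fin n → Bool) → ℝ) f).hasFDerivAt.comp_hasDerivAt t h
  exact h2

lemma generator_heat (μ : (Fin n → Bool) → ℝ) (f : (Fin n → Bool) → ℝ) (t : ℝ) :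
    generator μ (heat μ t f) = heat μ t (generator μ f) :=
  (hasDerivAt_heat μ f t).unique (hasDerivAt_heat' μ f t)

lemma hasDerivAt_heat_apply (μ : (Fin n → Bool) → ℝ) (f : (Fin n → Bool) → ℝ) (t : ℝ)
    (x : Fin n → Bool) :
    HasDerivAt (fun s => heat μ s f x) (generator μ (heat μ t f) x) t :=
  (hasDerivAt_pi.1 (hasDerivAt_heat μ f t)) x


lemma resample_symm (μ : (Fin n → Bool) → ℝ) (hμ : ∀ x, 0 < μ x) (i : Fin n)
    (a b : (Fin n → Bool) → ℝ) :
    ∑ x, μ x * a x * resample μ i b x = ∑ x, μ x * resample μ i a x * b x := by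
  have h1 := orth μ hμ i b (resample μ i a) (fun x c => resample_update μ i a x c)
  have h2 := orth μ hμ i a (resample μ i b) (fun x c => resample_update μ i b x c)
  have e1 : ∑ x, μ x * resample μ i a x * (b x - resample μ i b x)
      = ∑ x, μ x * resample μ i a x * b x - ∑ x, μ x * resample μ i a x * resample μ i b x := by
    rw [← Finset.sum_sub_distrib]
    exact Finset.sum_congr rfl fun x _ => by ring
  have e2 : ∑ x, μ x * resample μ i b x * (a x - resample μ i a x)
      = ∑ x, μ x * a x * resample μ i b x - ∑ x, μ x * resample μ i a x * resample μ i b x := by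
    rw [← Finset.sum_sub_distrib]
    exact Finset.sum_congr rfl fun x _ => by ring
  linarith

lemma sum_mul_generator (μ : (Fin n → Bool) → ℝ) (F b : (Fin n → Bool) → ℝ) :
    ∑ x, F x * generator μ b x
      = ∑ i, (∑ x, F x * resample μ i b x - ∑ x, F x * b x) := by
  unfold generator
  simp_rw [Finset.mul_sum]
  rw [Finset.sum_comm]
  refine Finset.sum_congr rfl fun i _ => ?_
  rw [← Finset.sum_sub_distrib]
  exact Finset.sum_congr rfl fun x _ => by ring

/-- the generator is symmetric in `L²(μ)` (reversibility) -/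
lemma generator_symm (μ : (Fin n → Bool) → ℝ) (hμ : ∀ x, 0 < μ x)
    (a b : (Fin n → Bool) → ℝ) :
    ∑ x, μ x * a x * generator μ b x = ∑ x, μ x * generator μ a x * b x := by
  have e2 : ∑ x, μ x * generator μ a x * b x = ∑ x, (μ x * b x) * generator μ a x :=
    Finset.sum_congr rfl fun x _ => by ring
  rw [e2, sum_mul_generator, sum_mul_generator]
  refine Finset.sum_congr rfl fun i _ => ?_
  have h := resample_symm μ hμ i a b
  have e3 : ∑ x, μ x * b x * resample μ i a x = ∑ x, μ x * resample μ i a x * b x :=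
    Finset.sum_congr rfl fun x _ => by ring
  have e4 : ∑ x, μ x * b x * a x = ∑ x, μ x * a x * b x :=
    Finset.sum_congr rfl fun x _ => by ring
  rw [e3, e4, h]

lemma generator_one (μ : (Fin n → Bool) → ℝ) (hμ : ∀ x, 0 < μ x) :
    generator μ (fun _ => 1) = 0 := by
  funext x
  unfold generator resample
  refine Finset.sum_eq_zero fun i _ => ?_
  have hpos : 0 < μ (Function.update x i true) + μ (Function.update x i false) :=
    add_pos (hμ _) (hμ _)
  field_simp
  ring

lemma sum_generator (μ : (Fin n → Bool) → ℝ) (hμ : ∀ x, 0 < μ x) (b : (Fin n → Bool) → ℝ) :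
    ∑ x, μ x * generator μ b x = 0 := by
  have h := generator_symm μ hμ (fun _ => 1) b
  rw [generator_one μ hμ] at h
  simpa using h

lemma heat_one (μ : (Fin n → Bool) → ℝ) (hμ : ∀ x, 0 < μ x) (t : ℝ) :
    heat μ t (fun _ => 1) = fun _ => 1 := by
  have hd : ∀ s, HasDerivAt (fun s => heat μ s (fun _ => 1)) 0 s := by
    intro s
    have h := hasDerivAt_heat' μ (fun _ => 1) s
    rw [generator_one μ hμ] at h
    have h0 : heat μ s 0 = 0 := by unfold heat; exact map_zero _
    rwa [h0] at h
  have hc := is_const_of_deriv_eq_zero (fun s => (hd s).differentiableAt) (fun s => (hd s).deriv)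
    t 0
  rw [hc, heat_zero]

lemma sum_heat (μ : (Fin n → Bool) → ℝ) (hμ : ∀ x, 0 < μ x) (f : (Fin n → Bool) → ℝ) (t : ℝ) :
    ∑ x, μ x * heat μ t f x = ∑ x, μ x * f x := by
  have hd : ∀ s, HasDerivAt (fun s => ∑ x, μ x * heat μ s f x) 0 s := by
    intro s
    have h : HasDerivAt (fun s => ∑ x, μ x * heat μ s f x)
        (∑ x, μ x * generator μ (heat μ s f) x) s :=
      HasDerivAt.fun_sum fun x _ => (hasDerivAt_heat_apply μ f s x).const_mul (μ x)
    rwa [sum_generator μ hμ] at h
  have hc := is_const_of_deriv_eq_zero (fun s => (hd s).differentiableAt) (fun s => (hd s).deriv)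
    t 0
  rw [hc, heat_zero]


lemma heat_injective (μ : (Fin n → Bool) → ℝ) (t : ℝ) : Function.Injective (heat μ t) := by
  intro a b hab
  have h1 : heat μ (-t) (heat μ t a) = a := by rw [← heat_add, neg_add_cancel, heat_zero]
  have h2 : heat μ (-t) (heat μ t b) = b := by rw [← heat_add, neg_add_cancel, heat_zero]
  rw [← h1, ← h2, hab]

lemma heat_const (μ : (Fin n → Bool) → ℝ) (hμ : ∀ x, 0 < μ x) (t m : ℝ) :
    heat μ t (fun _ => m) = fun _ => m := by
  have h : (fun _ : Fin n → Bool => m) = m • (fun _ : Fin n → Bool => (1 : ℝ)) := by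
    funext x; simp
  rw [h]
  unfold heat
  rw [map_smul]
  have := heat_one μ hμ t
  unfold heat at this
  rw [this]

section energy

variable (μ : (Fin n → Bool) → ℝ) (f : (Fin n → Bool) → ℝ)

/-- variance of `P_t f` -/
noncomputable def qf (t : ℝ) : ℝ := ∑ x, μ x * heat μ t f x ^ 2 - (∑ x, μ x * f x) ^ 2

/-- Dirichlet form of `P_t f` -/
noncomputable def ef (t : ℝ) : ℝ := dirichletForm μ (heat μ t f)

/-- squared norm of `L P_t f` -/
noncomputable def lf (t : ℝ) : ℝ := ∑ x, μ x * generator μ (heat μ t f) x ^ 2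

lemma qf_zero : qf μ f 0 = variance μ f := by
  unfold qf variance
  rw [heat_zero]

lemma ef_zero : ef μ f 0 = dirichletForm μ f := by
  unfold ef
  rw [heat_zero]

lemma qf_eq (hμ : ∀ x, 0 < μ x) (h1 : ∑ x, μ x = 1) (t : ℝ) :
    qf μ f t = ∑ x, μ x * (heat μ t f x - ∑ y, μ y * f y) ^ 2 := by
  have h := variance_eq μ h1 (heat μ t f)
  rw [sum_heat μ hμ] at h
  rw [← h]
  unfold qf variance
  rw [sum_heat μ hμ]

lemma hasDerivAt_qf (t : ℝ) : HasDerivAt (qf μ f) (-2 * ef μ f t) t := by
  have h : HasDerivAt (fun s => ∑ x, μ x * (heat μ s f x * heat μ s f x))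
      (∑ x, μ x * (generator μ (heat μ t f) x * heat μ t f x
        + heat μ t f x * generator μ (heat μ t f) x)) t :=
    HasDerivAt.fun_sum fun x _ =>
      ((hasDerivAt_heat_apply μ f t x).mul (hasDerivAt_heat_apply μ f t x)).const_mul (μ x)
  have h2 := h.sub_const ((∑ x, μ x * f x) ^ 2)
  have e1 : (fun s => ∑ x, μ x * (heat μ s f x * heat μ s f x) - (∑ x, μ x * f x) ^ 2)
      = qf μ f := by
    funext s
    unfold qf
    congr 1
    exact Finset.sum_congr rfl fun x _ => by ring
  rw [e1] at h2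
  have e2 : ∑ x, μ x * (generator μ (heat μ t f) x * heat μ t f x
        + heat μ t f x * generator μ (heat μ t f) x) = -2 * ef μ f t := by
    unfold ef dirichletForm
    rw [mul_neg, neg_mul, neg_neg, Finset.mul_sum]
    exact Finset.sum_congr rfl fun x _ => by ring
  rw [e2] at h2
  exact h2

lemma hasDerivAt_ef (hμ : ∀ x, 0 < μ x) (t : ℝ) : HasDerivAt (ef μ f) (-2 * lf μ f t) t := by
  have h : HasDerivAt (fun s => ∑ x, μ x * (heat μ s f x * heat μ s (generator μ f) x))
      (∑ x, μ x * (generator μ (heat μ t f) x * heat μ t (generator μ f) x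
        + heat μ t f x * generator μ (heat μ t (generator μ f)) x)) t :=
    HasDerivAt.fun_sum fun x _ =>
      ((hasDerivAt_heat_apply μ f t x).mul
        (hasDerivAt_heat_apply μ (generator μ f) t x)).const_mul (μ x)
  have h2 := h.fun_neg
  have e1 : (fun s => -∑ x, μ x * (heat μ s f x * heat μ s (generator μ f) x)) = ef μ f := by
    funext s
    unfold ef dirichletForm
    rw [generator_heat]
    congr 1
    exact Finset.sum_congr rfl fun x _ => by ring
  rw [e1] at h2
  have hs := generator_symm μ hμ (heat μ t f) (generator μ (heat μ t f))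
  have e4 : -∑ x, μ x * (generator μ (heat μ t f) x * heat μ t (generator μ f) x
        + heat μ t f x * generator μ (heat μ t (generator μ f)) x) = -2 * lf μ f t := by
    rw [← generator_heat]
    unfold lf
    have e2 : ∑ x, μ x * (generator μ (heat μ t f) x * generator μ (heat μ t f) x
          + heat μ t f x * generator μ (generator μ (heat μ t f)) x)
        = ∑ x, μ x * generator μ (heat μ t f) x ^ 2
          + ∑ x, μ x * heat μ t f x * generator μ (generator μ (heat μ t f)) x := by
      rw [← Finset.sum_add_distrib]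
      exact Finset.sum_congr rfl fun x _ => by ring
    have e3 : ∑ x, μ x * generator μ (heat μ t f) x * generator μ (heat μ t f) x
        = ∑ x, μ x * generator μ (heat μ t f) x ^ 2 :=
      Finset.sum_congr rfl fun x _ => by ring
    rw [e2, hs, e3]
    ring
  rw [e4] at h2
  exact h2

lemma ef_sq_le (hμ : ∀ x, 0 < μ x) (h1 : ∑ x, μ x = 1) (t : ℝ) :
    ef μ f t ^ 2 ≤ qf μ f t * lf μ f t := by
  set m := ∑ y, μ y * f y with hm
  set u := heat μ t f with hu
  have he : ef μ f t = -∑ x, μ x * (u x - m) * generator μ u x := by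
    unfold ef dirichletForm
    have e : ∑ x, μ x * (u x - m) * generator μ u x
        = ∑ x, μ x * u x * generator μ u x - m * ∑ x, μ x * generator μ u x := by
      rw [Finset.mul_sum, ← Finset.sum_sub_distrib]
      exact Finset.sum_congr rfl fun x _ => by ring
    rw [e, sum_generator μ hμ, mul_zero, sub_zero]
  rw [he, neg_sq, qf_eq μ f hμ h1]
  unfold lf
  refine Finset.sum_sq_le_sum_mul_sum_of_sq_le_mul Finset.univ
    (fun x _ => mul_nonneg (hμ x).le (sq_nonneg _))
    (fun x _ => mul_nonneg (hμ x).le (sq_nonneg _)) (fun x _ => le_of_eq ?_)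
  ring

lemma qf_nonneg (hμ : ∀ x, 0 < μ x) (h1 : ∑ x, μ x = 1) (t : ℝ) : 0 ≤ qf μ f t := by
  rw [qf_eq μ f hμ h1]
  exact Finset.sum_nonneg fun x _ => mul_nonneg (hμ x).le (sq_nonneg _)

lemma lf_nonneg (hμ : ∀ x, 0 < μ x) (t : ℝ) : 0 ≤ lf μ f t :=
  Finset.sum_nonneg fun x _ => mul_nonneg (hμ x).le (sq_nonneg _)

lemma qf_pos (hμ : ∀ x, 0 < μ x) (h1 : ∑ x, μ x = 1) (hV : 0 < variance μ f) (t : ℝ) :
    0 < qf μ f t := by
  rcases (qf_nonneg μ f hμ h1 t).lt_or_eq with h | h
  · exact h
  · exfalso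
    rw [qf_eq μ f hμ h1] at h
    have h0 := (Finset.sum_eq_zero_iff_of_nonneg
      (fun x _ => mul_nonneg (hμ x).le (sq_nonneg _))).1 h.symm
    have hconst : heat μ t f = fun _ => ∑ y, μ y * f y := by
      funext x
      have hx := h0 x (Finset.mem_univ x)
      have hx2 : (heat μ t f x - ∑ y, μ y * f y) ^ 2 = 0 := by
        rcases mul_eq_zero.1 hx with h' | h'
        · exact absurd h' (hμ x).ne'
        · exact h'
      have := pow_eq_zero_iff (two_ne_zero) |>.1 hx2
      linarith
    have hf : f = fun _ => ∑ y, μ y * f y := by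
      apply heat_injective μ t
      rw [hconst, heat_const μ hμ]
    have hV0 : variance μ f = 0 := by
      unfold variance
      set m := ∑ y, μ y * f y with hm
      have e1 : ∑ x, μ x * f x ^ 2 = m ^ 2 := by
        have : ∀ x, μ x * f x ^ 2 = μ x * m ^ 2 := by
          intro x
          rw [congrFun hf x]
        simp_rw [this]
        rw [← Finset.sum_mul, h1, one_mul]
      rw [e1]; ring
    rw [hV0] at hV
    exact lt_irrefl _ hV

end energy


section energy2

variable (μ : (Fin n → Bool) → ℝ) (f : (Fin n → Bool) → ℝ)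

/-- The Rayleigh quotient decreases along the heat flow. -/
lemma ef_le (hμ : ∀ x, 0 < μ x) (h1 : ∑ x, μ x = 1) (hV : 0 < variance μ f) (t : ℝ)
    (ht : 0 ≤ t) : ef μ f t * variance μ f ≤ dirichletForm μ f * qf μ f t := by
  have hd : ∀ s, HasDerivAt (fun s => ef μ f s / qf μ f s)
      ((-2 * lf μ f s * qf μ f s - ef μ f s * (-2 * ef μ f s)) / qf μ f s ^ 2) s := by
    intro s
    exact (hasDerivAt_ef μ f hμ s).div (hasDerivAt_qf μ f s) (qf_pos μ f hμ h1 hV s).ne'
  have hanti : Antitone (fun s => ef μ f s / qf μ f s) := by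
    refine antitone_of_deriv_nonpos (fun s => (hd s).differentiableAt) (fun s => ?_)
    rw [(hd s).deriv]
    refine div_nonpos_of_nonpos_of_nonneg ?_ (sq_nonneg _)
    have := ef_sq_le μ f hμ h1 s
    nlinarith
  have h := hanti ht
  simp only at h
  rw [qf_zero, ef_zero, div_le_div_iff₀ (qf_pos μ f hμ h1 hV t) hV] at h
  exact h

/-- Exponential lower bound for the variance along the heat flow. -/
lemma qf_ge (hμ : ∀ x, 0 < μ x) (h1 : ∑ x, μ x = 1) (hV : 0 < variance μ f) (t : ℝ)
    (ht : 0 ≤ t) :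
    variance μ f * Real.exp (-(2 * (dirichletForm μ f / variance μ f)) * t) ≤ qf μ f t := by
  set lam := dirichletForm μ f / variance μ f with hlam
  have hd : ∀ s, HasDerivAt (fun s => qf μ f s * Real.exp (2 * lam * s))
      (-2 * ef μ f s * Real.exp (2 * lam * s)
        + qf μ f s * (Real.exp (2 * lam * s) * (2 * lam))) s := by
    intro s
    have h2 : HasDerivAt (fun s : ℝ => 2 * lam * s) (2 * lam) s := by
      simpa using (hasDerivAt_id s).const_mul (2 * lam)
    exact (hasDerivAt_qf μ f s).mul (h2.exp)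
  have hmono : MonotoneOn (fun s => qf μ f s * Real.exp (2 * lam * s)) (Set.Ici 0) := by
    refine monotoneOn_of_deriv_nonneg (convex_Ici 0)
      (fun s _ => (hd s).continuousAt.continuousWithinAt)
      (fun s _ => (hd s).differentiableAt.differentiableWithinAt) (fun s hs => ?_)
    rw [interior_Ici] at hs
    rw [(hd s).deriv]
    have hle := ef_le μ f hμ h1 hV s (le_of_lt hs)
    have he : ef μ f s ≤ lam * qf μ f s := by
      rw [hlam, div_mul_eq_mul_div, le_div_iff₀ hV]
      exact hle
    have hexp := Real.exp_pos (2 * lam * s)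
    have : -2 * ef μ f s * Real.exp (2 * lam * s)
        + qf μ f s * (Real.exp (2 * lam * s) * (2 * lam))
        = 2 * Real.exp (2 * lam * s) * (lam * qf μ f s - ef μ f s) := by ring
    rw [this]
    exact mul_nonneg (by positivity) (by linarith)
  have h := hmono (Set.mem_Ici.2 le_rfl) (Set.mem_Ici.2 ht) ht
  simp only [mul_zero, Real.exp_zero, mul_one] at h
  rw [qf_zero] at h
  have hexp : Real.exp (-(2 * lam) * t) * Real.exp (2 * lam * t) = 1 := by
    rw [← Real.exp_add]; ring_nf; exact Real.exp_zero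
  calc variance μ f * Real.exp (-(2 * lam) * t)
      ≤ qf μ f t * Real.exp (2 * lam * t) * Real.exp (-(2 * lam) * t) :=
        mul_le_mul_of_nonneg_right h (Real.exp_pos _).le
    _ = qf μ f t := by rw [mul_assoc, mul_comm (Real.exp (2 * lam * t)), hexp, mul_one]

end energy2

/-- If the chain is within total variation `1/4` of equilibrium at time `t` from every start,
then `P_t` halves the sup-distance to the mean. -/
lemma heat_contract (μ : (Fin n → Bool) → ℝ) (hμ : ∀ x, 0 < μ x) (h1 : ∑ x, μ x = 1) (t : ℝ)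
    (htv : ∀ x, tvDist μ t x ≤ 1 / 4) (h : (Fin n → Bool) → ℝ) (B : ℝ)
    (hB : ∀ x, |h x - ∑ y, μ y * h y| ≤ B) (x : Fin n → Bool) :
    |heat μ t h x - ∑ y, μ y * h y| ≤ B / 2 := by
  set m := ∑ y, μ y * h y with hm
  have hone : ∑ y, heatKernel μ t x y = 1 := by
    have := heat_eq_sum μ t (fun _ => 1) x
    rw [heat_one μ hμ] at this
    simpa using this.symm
  have hB0 : 0 ≤ B := (abs_nonneg _).trans (hB x)
  have e : heat μ t h x - m = ∑ y, (heatKernel μ t x y - μ y) * (h y - m) := by
    have e1 : ∑ y, (heatKernel μ t x y - μ y) * (h y - m)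
        = ∑ y, heatKernel μ t x y * h y - m * ∑ y, heatKernel μ t x y
          - (∑ y, μ y * h y - m * ∑ y, μ y) := by
      rw [Finset.mul_sum, Finset.mul_sum, ← Finset.sum_sub_distrib, ← Finset.sum_sub_distrib,
        ← Finset.sum_sub_distrib]
      exact Finset.sum_congr rfl fun y _ => by ring
    rw [e1, hone, h1, ← heat_eq_sum, ← hm]
    ring
  rw [e]
  calc |∑ y, (heatKernel μ t x y - μ y) * (h y - m)|
      ≤ ∑ y, |(heatKernel μ t x y - μ y) * (h y - m)| := Finset.abs_sum_le_sum_abs _ _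
    _ ≤ ∑ y, |heatKernel μ t x y - μ y| * B := by
        refine Finset.sum_le_sum fun y _ => ?_
        rw [abs_mul]
        exact mul_le_mul_of_nonneg_left (hB y) (abs_nonneg _)
    _ = B * (2 * tvDist μ t x) := by
        unfold tvDist
        rw [← Finset.sum_mul]
        ring
    _ ≤ B * (2 * (1 / 4)) := by
        exact mul_le_mul_of_nonneg_left (by linarith [htv x]) hB0
    _ = B / 2 := by ring

lemma heat_iter (μ : (Fin n → Bool) → ℝ) (hμ : ∀ x, 0 < μ x) (h1 : ∑ x, μ x = 1) (t : ℝ)
    (htv : ∀ x, tvDist μ t x ≤ 1 / 4) (f : (Fin n → Bool) → ℝ) (B : ℝ)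
    (hB : ∀ x, |f x - ∑ y, μ y * f y| ≤ B) (k : ℕ) (x : Fin n → Bool) :
    |heat μ (k * t) f x - ∑ y, μ y * f y| ≤ B / 2 ^ k := by
  induction k generalizing x with
  | zero => simpa [heat_zero] using hB x
  | succ k ih =>
    have e : ((k + 1 : ℕ) : ℝ) * t = t + k * t := by push_cast; ring
    rw [e, heat_add]
    have hmean : ∑ y, μ y * heat μ (k * t) f y = ∑ y, μ y * f y := sum_heat μ hμ f _
    have := heat_contract μ hμ h1 t htv (heat μ (k * t) f) (B / 2 ^ k)
      (fun z => by rw [hmean]; exact ih z) x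
    rw [hmean] at this
    calc |heat μ t (heat μ (k * t) f) x - ∑ y, μ y * f y| ≤ B / 2 ^ k / 2 := this
      _ = B / 2 ^ (k + 1) := by rw [pow_succ]; field_simp

/-- Lower bound on the mixing time from a test function: if `t E(f) < log 2 · Var(f)` then at
time `t` some starting point is at total variation distance more than `1/4` from `μ`. -/
theorem mixing_lower (μ : (Fin n → Bool) → ℝ) (hμ : ∀ x, 0 < μ x) (h1 : ∑ x, μ x = 1)
    (f : (Fin n → Bool) → ℝ) (hV : 0 < variance μ f) (t : ℝ) (ht : 0 ≤ t)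
    (hlt : t * dirichletForm μ f < Real.log 2 * variance μ f) :
    ∃ x, 1 / 4 < tvDist μ t x := by
  by_contra hcon
  push Not at hcon
  set m := ∑ y, μ y * f y with hm
  set V := variance μ f with hVdef
  set lam := dirichletForm μ f / V with hlam
  let B : ℝ := ∑ x, |f x - m|
  have hB : ∀ x, |f x - m| ≤ B :=
    fun x => Finset.single_le_sum (f := fun x => |f x - m|) (fun y _ => abs_nonneg _)
      (Finset.mem_univ x)
  have hB0 : 0 ≤ B := Finset.sum_nonneg fun y _ => abs_nonneg _
  -- upper bound on the variance at time `k t`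
  have hup : ∀ k : ℕ, qf μ f (k * t) ≤ B ^ 2 / 4 ^ k := by
    intro k
    rw [qf_eq μ f hμ h1]
    have hk : ∀ x, (heat μ (k * t) f x - m) ^ 2 ≤ (B / 2 ^ k) ^ 2 := by
      intro x
      have := heat_iter μ hμ h1 t hcon f B hB k x
      exact sq_le_sq' (by linarith [neg_abs_le (heat μ (k * t) f x - m)])
        ((le_abs_self _).trans this)
    calc ∑ x, μ x * (heat μ (k * t) f x - m) ^ 2
        ≤ ∑ x, μ x * (B / 2 ^ k) ^ 2 :=
          Finset.sum_le_sum fun x _ => mul_le_mul_of_nonneg_left (hk x) (hμ x).le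
      _ = (B / 2 ^ k) ^ 2 := by rw [← Finset.sum_mul, h1, one_mul]
      _ = B ^ 2 / 4 ^ k := by
          rw [div_pow, ← pow_mul, mul_comm, pow_mul]; norm_num
  -- lower bound
  have hlow : ∀ k : ℕ, V * Real.exp (-(2 * lam) * (k * t)) ≤ qf μ f (k * t) := by
    intro k
    exact qf_ge μ f hμ h1 hV (k * t) (mul_nonneg (Nat.cast_nonneg k) ht)
  set r := 4 * Real.exp (-(2 * lam) * t) with hr
  have hr1 : 1 < r := by
    have h2 : 2 * lam * t < Real.log 4 := by
      have : Real.log 4 = 2 * Real.log 2 := by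
        rw [show (4 : ℝ) = 2 ^ 2 by norm_num, Real.log_pow]; norm_num
      rw [this, hlam]
      have h3 : dirichletForm μ f / V * t < Real.log 2 := by
        rw [div_mul_eq_mul_div, div_lt_iff₀ hV, mul_comm]
        exact hlt
      linarith
    have h4 : Real.exp (-(2 * lam) * t) > Real.exp (-Real.log 4) :=
      Real.exp_lt_exp.2 (by linarith)
    rw [Real.exp_neg, Real.exp_log (by norm_num)] at h4
    rw [hr]
    linarith
  have hall : ∀ k : ℕ, V * r ^ k ≤ B ^ 2 := by
    intro k
    have h5 := (hlow k).trans (hup k)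
    have h6 : Real.exp (-(2 * lam) * (k * t)) = Real.exp (-(2 * lam) * t) ^ k := by
      rw [← Real.exp_nat_mul]; ring_nf
    rw [h6] at h5
    have h4k : (0 : ℝ) < 4 ^ k := by positivity
    rw [le_div_iff₀ h4k] at h5
    calc V * r ^ k = V * Real.exp (-(2 * lam) * t) ^ k * 4 ^ k := by rw [hr, mul_pow]; ring
      _ ≤ B ^ 2 := h5
  obtain ⟨k, hk⟩ := pow_unbounded_of_one_lt (B ^ 2 / V) hr1
  have := hall k
  rw [div_lt_iff₀ hV] at hk
  linarith

end Vale.Agent.H40.SK
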