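import Mathlib

/-!
Definitions for heat-bath (Glauber) dynamics of the Sherrington-Kirkpatrick model.
Spin configurations are `x : Fin n → Bool`, the spin at site `i` being `spin (x i) ∈ {1, -1}`.
-/

namespace Vale.Agent.H40.SK

/-- The value `+1` or `-1` of a spin stored as a Boolean. -/
def spin (b : Bool) : ℝ := if b then 1 else -1

/-- The Sherrington-Kirkpatrick energy (without the inverse temperature):
`n^(-1/2) * ∑_{i<j} g (i,j) * x_i * x_j`.  Only the entries `g (i,j)` with `i < j` are used. -/
noncomputable def energy (n : ℕ) (g : Fin n × Fin n → ℝ) (x : Fin n → Bool) : ℝ :=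
  (Real.sqrt n)⁻¹ *
    ∑ p : Fin n × Fin n, if p.1 < p.2 then g p * spin (x p.1) * spin (x p.2) else 0

/-- The zero-field SK Gibbs measure at inverse temperature `β` and disorder `g`:
the probability of the configuration `x`. -/
noncomputable def gibbs (n : ℕ) (β : ℝ) (g : Fin n × Fin n → ℝ) (x : Fin n → Bool) : ℝ :=
  Real.exp (β * energy n g x) / ∑ y : Fin n → Bool, Real.exp (β * energy n g y)

/-- Heat-bath update at site `i` for a positive probability vector `μ` on configurations:
the conditional expectation of `f` under `μ` given all spins other than `i`, that is, the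
average of `f` after the spin at `i` is resampled from its conditional law given the others. -/
noncomputable def resample {n : ℕ} (μ : (Fin n → Bool) → ℝ) (i : Fin n)
    (f : (Fin n → Bool) → ℝ) (x : Fin n → Bool) : ℝ :=
  (μ (Function.update x i true) * f (Function.update x i true) +
      μ (Function.update x i false) * f (Function.update x i false)) /
    (μ (Function.update x i true) + μ (Function.update x i false))

/-- Generator of continuous-time heat-bath Glauber dynamics with rate-one clocks:
`L f = ∑_i (Q_i f - f)`. -/
noncomputable def generator {n : ℕ} (μ : (Fin n → Bool) → ℝ)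
    (f : (Fin n → Bool) → ℝ) (x : Fin n → Bool) : ℝ :=
  ∑ i : Fin n, (resample μ i f x - f x)

/-- Dirichlet form `-⟨f, L f⟩` in `L²(μ)`. -/
noncomputable def dirichletForm {n : ℕ} (μ : (Fin n → Bool) → ℝ)
    (f : (Fin n → Bool) → ℝ) : ℝ :=
  -∑ x : Fin n → Bool, μ x * f x * generator μ f x

/-- Variance of `f` under `μ`. -/
noncomputable def variance {n : ℕ} (μ : (Fin n → Bool) → ℝ) (f : (Fin n → Bool) → ℝ) : ℝ :=
  ∑ x : Fin n → Bool, μ x * f x ^ 2 - (∑ x : Fin n → Bool, μ x * f x) ^ 2

/-- Spectral gap of `-L` on `L²(μ)`, in its variational form: the infimum of the Rayleigh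
quotients `-⟨f, L f⟩ / Var_μ(f)` over functions of nonzero variance. -/
noncomputable def spectralGap {n : ℕ} (μ : (Fin n → Bool) → ℝ) : ℝ :=
  sInf {r : ℝ | ∃ f : (Fin n → Bool) → ℝ, variance μ f ≠ 0 ∧ r = dirichletForm μ f / variance μ f}

end Vale.Agent.H40.SK
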