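import Vale.Agent.H40.Glauber

/-!
Deterministic bound: for every disorder, the heat-bath spectral gap of the SK Gibbs measure is at
most `n / ∑_{i,j} ⟨x_i x_j⟩²`.
-/

namespace Vale.Agent.H40.SK

variable {n : ℕ}

lemma spin_mul_self (b : Bool) : spin b * spin b = 1 := by
  cases b <;> simp [spin]

lemma spin_sq (b : Bool) : spin b ^ 2 = 1 := by
  rw [sq, spin_mul_self]

lemma spin_not (b : Bool) : spin (!b) = -spin b := by
  cases b <;> simp [spin]

lemma abs_spin (b : Bool) : |spin b| = 1 := by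
  cases b <;> simp [spin]

/-- partition function at parameter `t` -/
noncomputable def partitionFn (n : ℕ) (t : ℝ) (g : Fin n × Fin n → ℝ) : ℝ :=
  ∑ y : Fin n → Bool, Real.exp (t * energy n g y)

lemma partitionFn_pos (n : ℕ) (t : ℝ) (g : Fin n × Fin n → ℝ) : 0 < partitionFn n t g :=
  Finset.sum_pos (fun _ _ => Real.exp_pos _) Finset.univ_nonempty

lemma gibbs_eq (n : ℕ) (β : ℝ) (g : Fin n × Fin n → ℝ) (x : Fin n → Bool) :
    gibbs n β g x = Real.exp (β * energy n g x) / partitionFn n β g := rfl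

lemma gibbs_pos (n : ℕ) (β : ℝ) (g : Fin n × Fin n → ℝ) (x : Fin n → Bool) :
    0 < gibbs n β g x :=
  div_pos (Real.exp_pos _) (partitionFn_pos n β g)

lemma gibbs_sum (n : ℕ) (β : ℝ) (g : Fin n × Fin n → ℝ) : ∑ x, gibbs n β g x = 1 := by
  simp_rw [gibbs_eq]
  rw [← Finset.sum_div]
  exact div_self (partitionFn_pos n β g).ne'

/-- global spin flip -/
def negCfg (x : Fin n → Bool) : Fin n → Bool := fun i => !x i

lemma negCfg_involutive : Function.Involutive (negCfg (n := n)) := by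
  intro x
  funext i
  simp [negCfg]

lemma sum_negCfg (F : (Fin n → Bool) → ℝ) : ∑ x, F (negCfg x) = ∑ x, F x :=
  Equiv.sum_comp (negCfg_involutive (n := n)).toPerm F

lemma energy_negCfg (g : Fin n × Fin n → ℝ) (x : Fin n → Bool) :
    energy n g (negCfg x) = energy n g x := by
  unfold energy negCfg
  congr 1
  refine Finset.sum_congr rfl fun p _ => ?_
  split_ifs
  · rw [spin_not, spin_not]; ring
  · rfl

lemma gibbs_negCfg (β : ℝ) (g : Fin n × Fin n → ℝ) (x : Fin n → Bool) :
    gibbs n β g (negCfg x) = gibbs n β g x := by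
  rw [gibbs_eq, gibbs_eq, energy_negCfg]

/-- linear test function `x ↦ ∑_i y_i x_i` -/
noncomputable def lin (y x : Fin n → Bool) : ℝ := ∑ i, spin (y i) * spin (x i)

lemma lin_negCfg (y x : Fin n → Bool) : lin y (negCfg x) = -lin y x := by
  unfold lin negCfg
  rw [← Finset.sum_neg_distrib]
  refine Finset.sum_congr rfl fun i _ => ?_
  rw [spin_not]; ring

/-- the Dirichlet form of a linear test function is at most `n` -/
lemma dirichletForm_lin_le (μ : (Fin n → Bool) → ℝ) (hμ : ∀ x, 0 < μ x) (h1 : ∑ x, μ x = 1)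
    (y : Fin n → Bool) : dirichletForm μ (lin y) ≤ n := by
  rw [dirichletForm_eq μ hμ]
  have hi : ∀ i : Fin n, ∑ x, μ x * (lin y x - resample μ i (lin y) x) ^ 2 ≤ 1 := by
    intro i
    let a : (Fin n → Bool) → ℝ := fun x => ∑ j ∈ Finset.univ.erase i, spin (y j) * spin (x j)
    have ha : ∀ x b, a (Function.update x i b) = a x := by
      intro x b
      refine Finset.sum_congr rfl fun j hj => ?_
      rw [Function.update_of_ne (Finset.ne_of_mem_erase hj)]
    have hdiff : ∀ x, lin y x - a x = spin (y i) * spin (x i) := by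
      intro x
      have := Finset.add_sum_erase Finset.univ (fun j => spin (y j) * spin (x j))
        (Finset.mem_univ i)
      simp only [lin, a]
      linarith
    refine (resample_dist_le μ hμ i (lin y) a ha).trans ?_
    have : ∀ x, μ x * (lin y x - a x) ^ 2 = μ x := by
      intro x
      rw [hdiff, mul_pow, spin_sq, spin_sq]; ring
    simp_rw [this]
    exact h1.le
  calc ∑ i, ∑ x, μ x * (lin y x - resample μ i (lin y) x) ^ 2
      ≤ ∑ _i : Fin n, (1 : ℝ) := Finset.sum_le_sum fun i _ => hi i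
    _ = n := by simp

/-- two-spin correlation under `μ` -/
noncomputable def corr (μ : (Fin n → Bool) → ℝ) (p : Fin n × Fin n) : ℝ :=
  ∑ x, μ x * (spin (x p.1) * spin (x p.2))

/-- `∑_{i,j} ⟨x_i x_j⟩²`, which is `n²` times the mean squared overlap of two replicas -/
noncomputable def corrSq (μ : (Fin n → Bool) → ℝ) : ℝ := ∑ p : Fin n × Fin n, corr μ p ^ 2

lemma sum_comm4 {α β : Type*} [Fintype α] [Fintype β] (T : α → α → β → β → ℝ) :
    ∑ y, ∑ x, ∑ i, ∑ j, T y x i j = ∑ i, ∑ j, ∑ y, ∑ x, T y x i j := by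
  calc ∑ y, ∑ x, ∑ i, ∑ j, T y x i j
      = ∑ y, ∑ i, ∑ x, ∑ j, T y x i j := Finset.sum_congr rfl fun y _ => Finset.sum_comm
    _ = ∑ i, ∑ y, ∑ x, ∑ j, T y x i j := Finset.sum_comm
    _ = ∑ i, ∑ y, ∑ j, ∑ x, T y x i j :=
        Finset.sum_congr rfl fun i _ => Finset.sum_congr rfl fun y _ => Finset.sum_comm
    _ = ∑ i, ∑ j, ∑ y, ∑ x, T y x i j := Finset.sum_congr rfl fun i _ => Finset.sum_comm

lemma sum_sq_lin (μ : (Fin n → Bool) → ℝ) :
    ∑ y, μ y * ∑ x, μ x * lin y x ^ 2 = corrSq μ := by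
  unfold corrSq corr
  rw [Fintype.sum_prod_type]
  have h : ∀ y x : Fin n → Bool, lin y x ^ 2
      = ∑ i, ∑ j, (spin (y i) * spin (y j)) * (spin (x i) * spin (x j)) := by
    intro y x
    unfold lin
    rw [sq, Finset.sum_mul_sum]
    refine Finset.sum_congr rfl fun i _ => Finset.sum_congr rfl fun j _ => ?_
    ring
  simp_rw [h, Finset.mul_sum]
  have e : ∀ i j : Fin n, (∑ x, μ x * (spin (x i) * spin (x j))) ^ 2
      = ∑ y, ∑ x, μ y * (μ x * (spin (y i) * spin (y j) * (spin (x i) * spin (x j)))) := by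
    intro i j
    rw [sq, Finset.sum_mul_sum]
    refine Finset.sum_congr rfl fun y _ => Finset.sum_congr rfl fun x _ => ?_
    ring
  simp_rw [e]
  exact sum_comm4 (fun y x i j =>
    μ y * (μ x * (spin (y i) * spin (y j) * (spin (x i) * spin (x j)))))

lemma exists_lin (μ : (Fin n → Bool) → ℝ) (hμ : ∀ x, 0 < μ x) (h1 : ∑ x, μ x = 1) :
    ∃ y, corrSq μ ≤ ∑ x, μ x * lin y x ^ 2 := by
  by_contra hcon
  push Not at hcon
  have hlt : ∑ y, μ y * ∑ x, μ x * lin y x ^ 2 < ∑ y, μ y * corrSq μ := by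
    refine Finset.sum_lt_sum_of_nonempty Finset.univ_nonempty fun y _ => ?_
    exact mul_lt_mul_of_pos_left (hcon y) (hμ y)
  rw [sum_sq_lin, ← Finset.sum_mul, h1, one_mul] at hlt
  exact lt_irrefl _ hlt

lemma corr_diag (μ : (Fin n → Bool) → ℝ) (h1 : ∑ x, μ x = 1) (i : Fin n) : corr μ (i, i) = 1 := by
  unfold corr
  simp [spin_mul_self, h1]

lemma corrSq_pos (μ : (Fin n → Bool) → ℝ) (h1 : ∑ x, μ x = 1) (hn : 1 ≤ n) : 0 < corrSq μ := by
  unfold corrSq
  let i : Fin n := ⟨0, hn⟩
  have h0 : ∀ p ∈ (Finset.univ : Finset (Fin n × Fin n)), 0 ≤ corr μ p ^ 2 := fun p _ => sq_nonneg _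
  have := Finset.single_le_sum h0 (Finset.mem_univ (i, i))
  rw [corr_diag μ h1] at this
  linarith

/-- Deterministic bound on the spectral gap, valid for every disorder `g` and every `β`. -/
theorem spectralGap_le_corrSq (hn : 1 ≤ n) (β : ℝ) (g : Fin n × Fin n → ℝ) :
    spectralGap (gibbs n β g) ≤ n / corrSq (gibbs n β g) := by
  set μ := gibbs n β g with hμdef
  have hμ : ∀ x, 0 < μ x := gibbs_pos n β g
  have h1 : ∑ x, μ x = 1 := gibbs_sum n β g
  obtain ⟨y, hy⟩ := exists_lin μ hμ h1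
  have hmean : ∑ x, μ x * lin y x = 0 := by
    have h := sum_negCfg (fun x => μ x * lin y x)
    simp only [lin_negCfg, hμdef, gibbs_negCfg] at h
    rw [← hμdef] at h
    have h' : ∑ x, μ x * -lin y x = -∑ x, μ x * lin y x := by
      rw [← Finset.sum_neg_distrib]
      exact Finset.sum_congr rfl fun x _ => by ring
    rw [h'] at h
    linarith
  have hvar : variance μ (lin y) = ∑ x, μ x * lin y x ^ 2 := by
    unfold variance
    rw [hmean]; ring
  have hpos := corrSq_pos μ h1 hn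
  have hvpos : 0 < variance μ (lin y) := by rw [hvar]; linarith
  refine (spectralGap_le μ hμ h1 (lin y) hvpos.ne').trans ?_
  have hd := dirichletForm_lin_le μ hμ h1 y
  have hn0 : (0 : ℝ) ≤ n := Nat.cast_nonneg n
  calc dirichletForm μ (lin y) / variance μ (lin y)
      ≤ n / variance μ (lin y) := div_le_div_of_nonneg_right hd hvpos.le
    _ ≤ n / corrSq μ := div_le_div_of_nonneg_left hn0 hpos (by rw [hvar]; exact hy)

end Vale.Agent.H40.SK
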