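import Mathlib

/-!
Gaussian integration by parts (Stein's identity), in one variable and in one coordinate of a
finite product of standard Gaussians.
-/

namespace Vale.Agent.H40

open MeasureTheory ProbabilityTheory Real

/-- derivative of the standard Gaussian density -/
lemma hasDerivAt_gaussianPDFReal (x : ℝ) :
    HasDerivAt (gaussianPDFReal 0 1) (-(x * gaussianPDFReal 0 1 x)) x := by
  have h1 : HasDerivAt (fun y : ℝ => -(y - 0) ^ 2 / (2 * ((1 : NNReal) : ℝ))) (-x) x := by
    have h := ((((hasDerivAt_id' x).sub_const (0:ℝ)).fun_pow 2).fun_neg).div_const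
      (2 * ((1 : NNReal) : ℝ))
    refine h.congr_deriv ?_
    simp
    ring
  have h3 := (h1.exp).const_mul ((√(2 * π * ((1 : NNReal) : ℝ)))⁻¹)
  rw [gaussianPDFReal_def]
  refine h3.congr_deriv ?_
  ring

/-- One-dimensional Stein identity for bounded functions with bounded derivative. -/
lemma stein_one (f f' : ℝ → ℝ) (hd : ∀ x, HasDerivAt f (f' x) x) (C : ℝ)
    (hf : ∀ x, |f x| ≤ C) (hf' : ∀ x, |f' x| ≤ C) (hm : Measurable f') :
    ∫ x, x * f x ∂(gaussianReal 0 1) = ∫ x, f' x ∂(gaussianReal 0 1) := by
  have hv : (1 : NNReal) ≠ 0 := one_ne_zero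
  rw [integral_gaussianReal_eq_integral_smul hv, integral_gaussianReal_eq_integral_smul hv]
  have hcont : Continuous f := continuous_iff_continuousAt.2 fun x => (hd x).continuousAt
  have hφint : Integrable (gaussianPDFReal 0 1) := integrable_gaussianPDFReal 0 1
  have hxφ : Integrable (fun x : ℝ => x * gaussianPDFReal 0 1 x) := by
    have h := (integrable_mul_exp_neg_mul_sq (b := (1 / 2 : ℝ)) (by norm_num)).const_mul
      ((√(2 * π * ((1 : NNReal) : ℝ)))⁻¹)
    refine h.congr (ae_of_all _ fun x => ?_)
    simp only [gaussianPDFReal_def]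
    have : -(x - 0) ^ 2 / (2 * ((1 : NNReal) : ℝ)) = -(1 / 2) * x ^ 2 := by
      simp; ring
    rw [this]; ring
  have key := integral_mul_deriv_eq_deriv_mul_of_integrable (u := f) (u' := f')
    (v := fun x => -gaussianPDFReal 0 1 x) (v' := fun x => x * gaussianPDFReal 0 1 x)
    (fun x _ => hd x)
    (fun x _ => by
      have := (hasDerivAt_gaussianPDFReal x).fun_neg
      refine this.congr_deriv ?_
      ring)
    (by
      refine Integrable.bdd_mul (c := C) hxφ hcont.aestronglyMeasurable ?_
      exact ae_of_all _ fun x => by simpa [Real.norm_eq_abs] using hf x)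
    (by
      refine Integrable.bdd_mul (c := C) hφint.neg hm.aestronglyMeasurable ?_
      exact ae_of_all _ fun x => by simpa [Real.norm_eq_abs] using hf' x)
    (by
      refine Integrable.bdd_mul (c := C) hφint.neg hcont.aestronglyMeasurable ?_
      exact ae_of_all _ fun x => by simpa [Real.norm_eq_abs] using hf x)
  have e1 : ∫ x, gaussianPDFReal 0 1 x • (x * f x) = ∫ x, f x * (x * gaussianPDFReal 0 1 x) := by
    congr 1; ext x; simp only [smul_eq_mul]; ring
  have e2 : ∫ x, gaussianPDFReal 0 1 x • f' x = -∫ x, f' x * -gaussianPDFReal 0 1 x := by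
    rw [← integral_neg]; congr 1; ext x; simp only [smul_eq_mul]; ring
  rw [e1, e2]
  exact key

variable {ι : Type*} [Fintype ι] [DecidableEq ι]

/-- Resampling one coordinate of a finite product of probability measures preserves the product. -/
lemma measurePreserving_update (μ : ι → Measure ℝ) [∀ i, IsProbabilityMeasure (μ i)] (k : ι) :
    MeasurePreserving (fun p : (ι → ℝ) × ℝ => Function.update p.1 k p.2)
      ((Measure.pi μ).prod (μ k)) (Measure.pi μ) := by
  refine ⟨measurable_update', ?_⟩
  symm
  refine Measure.pi_eq fun s hs => ?_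
  rw [Measure.map_apply measurable_update' (MeasurableSet.univ_pi hs)]
  have hpre : (fun p : (ι → ℝ) × ℝ => Function.update p.1 k p.2) ⁻¹' (Set.pi Set.univ s)
      = (Set.pi Set.univ (Function.update s k Set.univ)) ×ˢ (s k) := by
    ext ⟨g, u⟩
    simp only [Set.mem_preimage, Set.mem_pi, Set.mem_univ, forall_true_left, Set.mem_prod]
    constructor
    · intro h
      refine ⟨fun i => ?_, ?_⟩
      · by_cases hi : i = k
        · subst hi; simp
        · have := h i
          simpa [Function.update_of_ne hi] using this
      · simpa using h k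
    · rintro ⟨h1, h2⟩ i
      by_cases hi : i = k
      · subst hi; simpa using h2
      · have := h1 i
        simpa [Function.update_of_ne hi] using this
  rw [hpre, Measure.prod_prod, Measure.pi_pi]
  rw [← Finset.mul_prod_erase Finset.univ _ (Finset.mem_univ k)]
  rw [← Finset.mul_prod_erase Finset.univ (fun i => μ i (s i)) (Finset.mem_univ k)]
  simp only [Function.update_self, measure_univ, one_mul]
  rw [mul_comm]
  congr 1
  refine Finset.prod_congr rfl fun i hi => ?_
  rw [Function.update_of_ne (Finset.ne_of_mem_erase hi)]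

/-- The standard Gaussian product measure on `ι → ℝ`. -/
noncomputable abbrev stdGauss (ι : Type*) [Fintype ι] : Measure (ι → ℝ) :=
  Measure.pi (fun _ : ι => gaussianReal 0 1)

/-- Gaussian integration by parts in coordinate `k` of a standard Gaussian vector. -/
lemma stein_pi (k : ι) (F F' : (ι → ℝ) → ℝ) (hF : Measurable F) (hF' : Measurable F') (C : ℝ)
    (hb : ∀ g, |F g| ≤ C) (hb' : ∀ g, |F' g| ≤ C)
    (hd : ∀ g u, HasDerivAt (fun v => F (Function.update g k v)) (F' (Function.update g k u)) u) :
    ∫ g, g k * F g ∂(stdGauss ι) = ∫ g, F' g ∂(stdGauss ι) := by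
  have mp : MeasurePreserving (fun p : (ι → ℝ) × ℝ => Function.update p.1 k p.2)
      ((stdGauss ι).prod (gaussianReal 0 1)) (stdGauss ι) :=
    measurePreserving_update (fun _ : ι => gaussianReal 0 1) k
  have hupd : Measurable (fun p : (ι → ℝ) × ℝ => Function.update p.1 k p.2) := measurable_update'
  have hC : 0 ≤ C := le_trans (abs_nonneg _) (hb 0)
  -- left side
  have hL : ∫ g, g k * F g ∂(stdGauss ι)
      = ∫ p : (ι → ℝ) × ℝ, p.2 * F (Function.update p.1 k p.2)
          ∂((stdGauss ι).prod (gaussianReal 0 1)) := by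
    have h1 : Measurable (fun g : ι → ℝ => g k * F g) := (measurable_pi_apply k).mul hF
    conv_lhs => rw [← mp.map_eq]
    rw [integral_map hupd.aemeasurable h1.aestronglyMeasurable]
    simp
  have hR : ∫ g, F' g ∂(stdGauss ι)
      = ∫ p : (ι → ℝ) × ℝ, F' (Function.update p.1 k p.2)
          ∂((stdGauss ι).prod (gaussianReal 0 1)) := by
    conv_lhs => rw [← mp.map_eq]
    rw [integral_map hupd.aemeasurable hF'.aestronglyMeasurable]
  rw [hL, hR]
  have hint1 : Integrable (fun p : (ι → ℝ) × ℝ => p.2 * F (Function.update p.1 k p.2))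
      ((stdGauss ι).prod (gaussianReal 0 1)) := by
    have hid : Integrable (fun p : (ι → ℝ) × ℝ => p.2) ((stdGauss ι).prod (gaussianReal 0 1)) :=
      Integrable.comp_snd (f := fun x : ℝ => x)
        (memLp_id_gaussianReal 1 |>.integrable le_rfl) (stdGauss ι)
    have := Integrable.bdd_mul (c := C) hid (hF.comp hupd).aestronglyMeasurable
      (ae_of_all _ fun p => by simpa [Real.norm_eq_abs] using hb _)
    refine this.congr (ae_of_all _ fun p => ?_)
    simp [mul_comm]
  have hint2 : Integrable (fun p : (ι → ℝ) × ℝ => F' (Function.update p.1 k p.2))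
      ((stdGauss ι).prod (gaussianReal 0 1)) := by
    refine Integrable.of_bound (hF'.comp hupd).aestronglyMeasurable C
      (ae_of_all _ fun p => by simpa [Real.norm_eq_abs] using hb' _)
  rw [integral_prod _ hint1, integral_prod _ hint2]
  congr 1
  ext g
  refine stein_one (fun u => F (Function.update g k u)) (fun u => F' (Function.update g k u))
    (hd g) C (fun u => hb _) (fun u => hb' _) ?_
  exact hF'.comp (measurable_update g)

end Vale.Agent.H40
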