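import Vale.Agent.H40.SKDet
import Vale.Agent.H40.Stein

/-!
Gaussian estimates for the SK model: integration by parts for two-spin correlations and the
first-moment bound on the mean energy.
-/

namespace Vale.Agent.H40.SK

open MeasureTheory ProbabilityTheory Real

variable {n : ℕ}

/-! ### Counting pairs -/

lemma sum_pairs_split (F : Fin n × Fin n → ℝ) (hF : ∀ p, F p.swap = F p) :
    ∑ p, F p = ∑ p : Fin n × Fin n, (if p.1 = p.2 then F p else 0)
      + 2 * ∑ p : Fin n × Fin n, (if p.1 < p.2 then F p else 0) := by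
  have h1 : ∀ p : Fin n × Fin n, F p = (if p.1 < p.2 then F p else 0)
      + (if p.1 = p.2 then F p else 0) + (if p.2 < p.1 then F p else 0) := by
    intro p
    rcases lt_trichotomy p.1 p.2 with h | h | h
    · simp [h, h.ne, h.not_gt]
    · simp [h]
    · simp [h, h.ne', h.not_gt]
  have h2 : ∑ p : Fin n × Fin n, (if p.2 < p.1 then F p else 0)
      = ∑ p : Fin n × Fin n, (if p.1 < p.2 then F p else 0) := by
    rw [← Equiv.sum_comp (Equiv.prodComm (Fin n) (Fin n))
      (fun p : Fin n × Fin n => if p.1 < p.2 then F p else 0)]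
    refine Finset.sum_congr rfl fun p _ => ?_
    simp only [Equiv.prodComm_apply, Prod.fst_swap, Prod.snd_swap, hF]
  conv_lhs => rw [Finset.sum_congr rfl fun p _ => h1 p]
  rw [Finset.sum_add_distrib, Finset.sum_add_distrib, h2]
  ring

/-- number of pairs `i < j`, as a real number -/
noncomputable def numPairs (n : ℕ) : ℝ := ∑ p : Fin n × Fin n, (if p.1 < p.2 then (1 : ℝ) else 0)

lemma sum_diag_one (n : ℕ) : ∑ p : Fin n × Fin n, (if p.1 = p.2 then (1 : ℝ) else 0) = n := by
  rw [Fintype.sum_prod_type]
  simp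

lemma numPairs_eq (n : ℕ) : (n : ℝ) + 2 * numPairs n = (n : ℝ) ^ 2 := by
  have h := sum_pairs_split (n := n) (fun _ => (1 : ℝ)) (fun _ => rfl)
  rw [sum_diag_one] at h
  unfold numPairs
  rw [← h]
  simp [sq]

lemma numPairs_nonneg (n : ℕ) : 0 ≤ numPairs n :=
  Finset.sum_nonneg fun p _ => by split_ifs <;> norm_num

lemma numPairs_le (n : ℕ) : numPairs n ≤ (n : ℝ) ^ 2 / 2 := by
  have h := numPairs_eq n
  have h0 : (0 : ℝ) ≤ n := Nat.cast_nonneg n
  linarith

/-! ### Dependence of the energy on one coupling -/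

lemma continuous_energy (x : Fin n → Bool) : Continuous (fun g : Fin n × Fin n → ℝ => energy n g x) := by
  unfold energy
  refine continuous_const.mul (continuous_finsetSum _ fun p _ => ?_)
  split_ifs
  · exact ((continuous_apply p).mul continuous_const).mul continuous_const
  · exact continuous_const

lemma energy_hasDerivAt (g : Fin n × Fin n → ℝ) (p : Fin n × Fin n) (x : Fin n → Bool) (u : ℝ) :
    HasDerivAt (fun v => energy n (Function.update g p v) x)
      ((√(n : ℝ))⁻¹ * (if p.1 < p.2 then spin (x p.1) * spin (x p.2) else 0)) u := by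
  unfold energy
  refine HasDerivAt.const_mul _ ?_
  have hterm : ∀ q ∈ (Finset.univ : Finset (Fin n × Fin n)),
      HasDerivAt (fun v => if q.1 < q.2 then Function.update g p v q * spin (x q.1) * spin (x q.2)
        else 0)
        (if q = p then (if q.1 < q.2 then spin (x q.1) * spin (x q.2) else 0) else 0) u := by
    intro q _
    by_cases hq : q = p
    · subst hq
      simp only [Function.update_self, if_true]
      split_ifs
      · have := ((hasDerivAt_id' u).mul_const (spin (x q.1))).mul_const (spin (x q.2))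
        refine this.congr_deriv ?_
        ring
      · exact hasDerivAt_const _ _
    · simp only [Function.update_of_ne hq, if_neg hq]
      exact hasDerivAt_const _ _
  have := HasDerivAt.fun_sum hterm
  refine this.congr_deriv ?_
  rw [Finset.sum_ite_eq' Finset.univ p]
  simp

/-! ### Correlations as functions of the disorder -/

/-- numerator of the two-spin correlation -/
noncomputable def corrNum (n : ℕ) (β : ℝ) (p : Fin n × Fin n) (g : Fin n × Fin n → ℝ) : ℝ :=
  ∑ x : Fin n → Bool, Real.exp (β * energy n g x) * (spin (x p.1) * spin (x p.2))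

lemma corr_gibbs_eq (β : ℝ) (p : Fin n × Fin n) (g : Fin n × Fin n → ℝ) :
    corr (gibbs n β g) p = corrNum n β p g / partitionFn n β g := by
  unfold corr corrNum
  simp_rw [gibbs_eq]
  rw [Finset.sum_div]
  refine Finset.sum_congr rfl fun x _ => ?_
  ring

lemma continuous_partitionFn (t : ℝ) : Continuous (fun g : Fin n × Fin n → ℝ => partitionFn n t g) := by
  unfold partitionFn
  exact continuous_finsetSum _ fun x _ =>
    Real.continuous_exp.comp (continuous_const.mul (continuous_energy x))

lemma continuous_corrNum (β : ℝ) (p : Fin n × Fin n) :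
    Continuous (fun g : Fin n × Fin n → ℝ => corrNum n β p g) := by
  unfold corrNum
  exact continuous_finsetSum _ fun x _ =>
    (Real.continuous_exp.comp (continuous_const.mul (continuous_energy x))).mul continuous_const

lemma continuous_corr (β : ℝ) (p : Fin n × Fin n) :
    Continuous (fun g : Fin n × Fin n → ℝ => corr (gibbs n β g) p) := by
  simp_rw [corr_gibbs_eq]
  exact (continuous_corrNum β p).div (continuous_partitionFn β)
    (fun g => (partitionFn_pos n β g).ne')

lemma abs_corr_le (μ : (Fin n → Bool) → ℝ) (hμ : ∀ x, 0 < μ x) (h1 : ∑ x, μ x = 1)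
    (p : Fin n × Fin n) : |corr μ p| ≤ 1 := by
  unfold corr
  calc |∑ x, μ x * (spin (x p.1) * spin (x p.2))|
      ≤ ∑ x, |μ x * (spin (x p.1) * spin (x p.2))| := Finset.abs_sum_le_sum_abs _ _
    _ = ∑ x, μ x := by
        refine Finset.sum_congr rfl fun x _ => ?_
        rw [abs_mul, abs_mul, abs_spin, abs_spin, abs_of_pos (hμ x)]; ring
    _ = 1 := h1

lemma corr_sq_le_one (β : ℝ) (p : Fin n × Fin n) (g : Fin n × Fin n → ℝ) :
    corr (gibbs n β g) p ^ 2 ≤ 1 := by
  have h := abs_corr_le (gibbs n β g) (gibbs_pos n β g) (gibbs_sum n β g) p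
  have := sq_le_sq' (neg_le_of_abs_le h) (le_of_abs_le h)
  simpa using this

lemma corrNum_hasDerivAt (β : ℝ) (p : Fin n × Fin n) (hp : p.1 < p.2) (g : Fin n × Fin n → ℝ)
    (u : ℝ) :
    HasDerivAt (fun v => corrNum n β p (Function.update g p v))
      (β * (√(n : ℝ))⁻¹ * partitionFn n β (Function.update g p u)) u := by
  unfold corrNum partitionFn
  have hterm : ∀ x ∈ (Finset.univ : Finset (Fin n → Bool)),
      HasDerivAt (fun v => Real.exp (β * energy n (Function.update g p v) x)
          * (spin (x p.1) * spin (x p.2)))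
        (β * (√(n : ℝ))⁻¹ * Real.exp (β * energy n (Function.update g p u) x)) u := by
    intro x _
    have h := (((energy_hasDerivAt g p x u).const_mul β).exp).mul_const
      (spin (x p.1) * spin (x p.2))
    refine h.congr_deriv ?_
    rw [if_pos hp]
    have e1 := spin_mul_self (x p.1)
    have e2 := spin_mul_self (x p.2)
    calc Real.exp (β * energy n (Function.update g p u) x)
          * (β * ((√(n : ℝ))⁻¹ * (spin (x p.1) * spin (x p.2)))) * (spin (x p.1) * spin (x p.2))
        = β * (√(n : ℝ))⁻¹ * Real.exp (β * energy n (Function.update g p u) x)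
            * ((spin (x p.1) * spin (x p.1)) * (spin (x p.2) * spin (x p.2))) := by ring
      _ = β * (√(n : ℝ))⁻¹ * Real.exp (β * energy n (Function.update g p u) x) := by
          rw [e1, e2]; ring
  have := HasDerivAt.fun_sum hterm
  refine this.congr_deriv ?_
  rw [Finset.mul_sum]

lemma partitionFn_hasDerivAt (β : ℝ) (p : Fin n × Fin n) (hp : p.1 < p.2)
    (g : Fin n × Fin n → ℝ) (u : ℝ) :
    HasDerivAt (fun v => partitionFn n β (Function.update g p v))
      (β * (√(n : ℝ))⁻¹ * corrNum n β p (Function.update g p u)) u := by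
  unfold corrNum partitionFn
  have hterm : ∀ x ∈ (Finset.univ : Finset (Fin n → Bool)),
      HasDerivAt (fun v => Real.exp (β * energy n (Function.update g p v) x))
        (β * (√(n : ℝ))⁻¹ * (Real.exp (β * energy n (Function.update g p u) x)
          * (spin (x p.1) * spin (x p.2)))) u := by
    intro x _
    have h := ((energy_hasDerivAt g p x u).const_mul β).exp
    refine h.congr_deriv ?_
    rw [if_pos hp]
    ring
  have := HasDerivAt.fun_sum hterm
  refine this.congr_deriv ?_
  rw [Finset.mul_sum]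

lemma corr_hasDerivAt (β : ℝ) (p : Fin n × Fin n) (hp : p.1 < p.2) (g : Fin n × Fin n → ℝ)
    (u : ℝ) :
    HasDerivAt (fun v => corr (gibbs n β (Function.update g p v)) p)
      (β * (√(n : ℝ))⁻¹ * (1 - corr (gibbs n β (Function.update g p u)) p ^ 2)) u := by
  simp_rw [corr_gibbs_eq]
  have hZ := (partitionFn_pos n β (Function.update g p u)).ne'
  have h := (corrNum_hasDerivAt β p hp g u).div (partitionFn_hasDerivAt β p hp g u) hZ
  refine h.congr_deriv ?_
  field_simp

/-- Gaussian integration by parts for the two-spin correlation of a pair `i < j`. -/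
lemma integral_coord_mul_corr (β : ℝ) (p : Fin n × Fin n) (hp : p.1 < p.2) :
    ∫ g, g p * corr (gibbs n β g) p ∂(stdGauss (Fin n × Fin n))
      = β * (√(n : ℝ))⁻¹ * (1 - ∫ g, corr (gibbs n β g) p ^ 2 ∂(stdGauss (Fin n × Fin n))) := by
  have hm : Measurable (fun g : Fin n × Fin n → ℝ => corr (gibbs n β g) p) :=
    (continuous_corr β p).measurable
  have hm' : Measurable (fun g : Fin n × Fin n → ℝ =>
      β * (√(n : ℝ))⁻¹ * (1 - corr (gibbs n β g) p ^ 2)) :=
    (measurable_const.mul (measurable_const.sub (hm.pow_const 2)))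
  have hs : 0 ≤ (√(n : ℝ))⁻¹ := inv_nonneg.2 (Real.sqrt_nonneg _)
  have key := stein_pi p (fun g => corr (gibbs n β g) p)
    (fun g => β * (√(n : ℝ))⁻¹ * (1 - corr (gibbs n β g) p ^ 2)) hm hm'
    (1 + |β| * (√(n : ℝ))⁻¹)
    (fun g => by
      have h := abs_corr_le (gibbs n β g) (gibbs_pos n β g) (gibbs_sum n β g) p
      have : 0 ≤ |β| * (√(n : ℝ))⁻¹ := mul_nonneg (abs_nonneg _) hs
      linarith)
    (fun g => by
      have h1 := corr_sq_le_one β p g
      have h0 : 0 ≤ corr (gibbs n β g) p ^ 2 := sq_nonneg _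
      rw [abs_mul, abs_mul, abs_of_nonneg hs]
      have h2 : |1 - corr (gibbs n β g) p ^ 2| ≤ 1 := by
        rw [abs_le]; constructor <;> linarith
      have h3 : 0 ≤ |β| * (√(n : ℝ))⁻¹ := mul_nonneg (abs_nonneg _) hs
      nlinarith)
    (fun g u => corr_hasDerivAt β p hp g u)
  rw [key, integral_const_mul, integral_sub (integrable_const _), integral_const]
  · simp
  · refine Integrable.of_bound (hm.pow_const 2).aestronglyMeasurable 1 (ae_of_all _ fun g => ?_)
    rw [Real.norm_eq_abs, abs_of_nonneg (sq_nonneg _)]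
    exact corr_sq_le_one β p g

/-! ### The mean energy -/

/-- Gibbs average of the energy -/
noncomputable def avgEnergy (n : ℕ) (β : ℝ) (g : Fin n × Fin n → ℝ) : ℝ :=
  ∑ x : Fin n → Bool, gibbs n β g x * energy n g x

lemma avgEnergy_eq (β : ℝ) (g : Fin n × Fin n → ℝ) :
    avgEnergy n β g = (√(n : ℝ))⁻¹ *
      ∑ p : Fin n × Fin n, (if p.1 < p.2 then g p * corr (gibbs n β g) p else 0) := by
  unfold avgEnergy energy corr
  rw [Finset.mul_sum]
  have h1 : ∀ x : Fin n → Bool, gibbs n β g x * ((√(n : ℝ))⁻¹ *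
      ∑ p : Fin n × Fin n, if p.1 < p.2 then g p * spin (x p.1) * spin (x p.2) else 0)
      = ∑ p : Fin n × Fin n, (√(n : ℝ))⁻¹ *
        (if p.1 < p.2 then g p * (gibbs n β g x * (spin (x p.1) * spin (x p.2))) else 0) := by
    intro x
    rw [Finset.mul_sum, Finset.mul_sum]
    refine Finset.sum_congr rfl fun p _ => ?_
    split_ifs <;> ring
  simp_rw [h1]
  rw [Finset.sum_comm]
  refine Finset.sum_congr rfl fun p _ => ?_
  rw [← Finset.mul_sum]
  congr 1
  split_ifs
  · rw [Finset.mul_sum]
  · simp

lemma integrable_coord_mul_corr (β : ℝ) (p : Fin n × Fin n) :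
    Integrable (fun g : Fin n × Fin n → ℝ => g p * corr (gibbs n β g) p)
      (stdGauss (Fin n × Fin n)) := by
  have hid : Integrable (fun g : Fin n × Fin n → ℝ => g p) (stdGauss (Fin n × Fin n)) :=
    integrable_eval (μ := fun _ : Fin n × Fin n => gaussianReal 0 1) (i := p)
      (memLp_id_gaussianReal 1 |>.integrable le_rfl)
  have := Integrable.bdd_mul (c := 1) hid (continuous_corr β p).measurable.aestronglyMeasurable
    (ae_of_all _ fun g => by
      simpa [Real.norm_eq_abs] using
        abs_corr_le (gibbs n β g) (gibbs_pos n β g) (gibbs_sum n β g) p)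
  refine this.congr (ae_of_all _ fun g => ?_)
  simp [mul_comm]

lemma integrable_corr_sq (β : ℝ) (p : Fin n × Fin n) :
    Integrable (fun g : Fin n × Fin n → ℝ => corr (gibbs n β g) p ^ 2)
      (stdGauss (Fin n × Fin n)) := by
  refine Integrable.of_bound ((continuous_corr β p).measurable.pow_const 2).aestronglyMeasurable 1
    (ae_of_all _ fun g => ?_)
  rw [Real.norm_eq_abs, abs_of_nonneg (sq_nonneg _)]
  exact corr_sq_le_one β p g

/-- sum over pairs `i < j` of the disorder average of the squared correlation -/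
noncomputable def upperSq (n : ℕ) (β : ℝ) : ℝ :=
  ∑ p : Fin n × Fin n, (if p.1 < p.2 then
    ∫ g, corr (gibbs n β g) p ^ 2 ∂(stdGauss (Fin n × Fin n)) else 0)

lemma integrable_avgEnergy (β : ℝ) :
    Integrable (fun g : Fin n × Fin n → ℝ => avgEnergy n β g) (stdGauss (Fin n × Fin n)) := by
  simp_rw [avgEnergy_eq]
  refine Integrable.const_mul (integrable_finsetSum _ fun p _ => ?_) _
  split_ifs
  · exact integrable_coord_mul_corr β p
  · exact integrable_zero _ _ _

/-- The disorder average of the mean energy, by Gaussian integration by parts. -/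
lemma integral_avgEnergy (β : ℝ) :
    ∫ g, avgEnergy n β g ∂(stdGauss (Fin n × Fin n))
      = β * ((√(n : ℝ))⁻¹ * (√(n : ℝ))⁻¹) * (numPairs n - upperSq n β) := by
  simp_rw [avgEnergy_eq]
  rw [integral_const_mul, integral_finsetSum]
  · have h : ∀ p : Fin n × Fin n,
        ∫ g, (if p.1 < p.2 then g p * corr (gibbs n β g) p else 0) ∂(stdGauss (Fin n × Fin n))
        = β * (√(n : ℝ))⁻¹ * ((if p.1 < p.2 then (1 : ℝ) else 0)
          - (if p.1 < p.2 then
            ∫ g, corr (gibbs n β g) p ^ 2 ∂(stdGauss (Fin n × Fin n)) else 0)) := by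
      intro p
      split_ifs with hp
      · exact integral_coord_mul_corr β p hp
      · simp
    simp_rw [h]
    rw [← Finset.mul_sum, Finset.sum_sub_distrib]
    unfold numPairs upperSq
    ring
  · intro p _
    split_ifs
    · exact integrable_coord_mul_corr β p
    · exact integrable_zero _ _ _

/-- Pointwise bound of the mean energy by the partition function at parameter `t`. -/
lemma avgEnergy_le (β t a : ℝ) (ht : 0 < t) (ha : 0 < a) (g : Fin n × Fin n → ℝ) :
    avgEnergy n β g ≤ t⁻¹ * (partitionFn n t g / a - 1 + Real.log a) := by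
  have hZ := partitionFn_pos n t g
  have hx : ∀ x : Fin n → Bool, energy n g x ≤ t⁻¹ * (partitionFn n t g / a - 1 + Real.log a) := by
    intro x
    have h1 : Real.exp (t * energy n g x) ≤ partitionFn n t g := by
      unfold partitionFn
      exact Finset.single_le_sum (f := fun y => Real.exp (t * energy n g y))
        (fun y _ => (Real.exp_pos _).le) (Finset.mem_univ x)
    have h2 : t * energy n g x ≤ Real.log (partitionFn n t g) := by
      have := Real.log_le_log (Real.exp_pos _) h1
      rwa [Real.log_exp] at this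
    have h3 : Real.log (partitionFn n t g / a) ≤ partitionFn n t g / a - 1 :=
      Real.log_le_sub_one_of_pos (div_pos hZ ha)
    rw [Real.log_div hZ.ne' ha.ne'] at h3
    have h4 : t * energy n g x ≤ partitionFn n t g / a - 1 + Real.log a := by linarith
    rw [← mul_le_mul_iff_right₀ ht, ← mul_assoc, mul_inv_cancel₀ ht.ne', one_mul]
    exact h4
  unfold avgEnergy
  calc ∑ x, gibbs n β g x * energy n g x
      ≤ ∑ x, gibbs n β g x * (t⁻¹ * (partitionFn n t g / a - 1 + Real.log a)) :=
        Finset.sum_le_sum fun x _ => mul_le_mul_of_nonneg_left (hx x) (gibbs_pos n β g x).le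
    _ = t⁻¹ * (partitionFn n t g / a - 1 + Real.log a) := by
        rw [← Finset.sum_mul, gibbs_sum, one_mul]

/-! ### The annealed partition function -/

/-- coefficient of `g p` in `t * energy n g x` -/
noncomputable def coef (n : ℕ) (t : ℝ) (x : Fin n → Bool) (p : Fin n × Fin n) : ℝ :=
  t * (√(n : ℝ))⁻¹ * (if p.1 < p.2 then spin (x p.1) * spin (x p.2) else 0)

lemma exp_energy_eq (t : ℝ) (x : Fin n → Bool) (g : Fin n × Fin n → ℝ) :
    Real.exp (t * energy n g x) = ∏ p : Fin n × Fin n, Real.exp (coef n t x p * g p) := by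
  rw [← Real.exp_sum]
  congr 1
  unfold energy coef
  rw [Finset.mul_sum, Finset.mul_sum]
  refine Finset.sum_congr rfl fun p _ => ?_
  split_ifs <;> ring

lemma integral_exp_gaussian (c : ℝ) :
    ∫ u, Real.exp (c * u) ∂(gaussianReal 0 1) = Real.exp (c ^ 2 / 2) := by
  have h := congrFun (mgf_id_gaussianReal (μ := 0) (v := 1)) c
  simp only [mgf, id] at h
  rw [h]
  congr 1
  simp

lemma coef_sq (t : ℝ) (x : Fin n → Bool) (p : Fin n × Fin n) :
    coef n t x p ^ 2 = t ^ 2 * ((√(n : ℝ))⁻¹ * (√(n : ℝ))⁻¹) * (if p.1 < p.2 then (1 : ℝ) else 0) := by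
  unfold coef
  split_ifs
  · have e1 := spin_mul_self (x p.1)
    have e2 := spin_mul_self (x p.2)
    calc (t * (√(n : ℝ))⁻¹ * (spin (x p.1) * spin (x p.2))) ^ 2
        = t ^ 2 * ((√(n : ℝ))⁻¹ * (√(n : ℝ))⁻¹)
          * ((spin (x p.1) * spin (x p.1)) * (spin (x p.2) * spin (x p.2))) := by ring
      _ = t ^ 2 * ((√(n : ℝ))⁻¹ * (√(n : ℝ))⁻¹) * 1 := by rw [e1, e2]; ring
  · simp

lemma integral_exp_energy (t : ℝ) (x : Fin n → Bool) :
    ∫ g, Real.exp (t * energy n g x) ∂(stdGauss (Fin n × Fin n))
      = Real.exp (t ^ 2 * ((√(n : ℝ))⁻¹ * (√(n : ℝ))⁻¹) * numPairs n / 2) := by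
  simp_rw [exp_energy_eq]
  have h := integral_fintype_prod_eq_prod (𝕜 := ℝ) (ι := Fin n × Fin n) (E := fun _ => ℝ)
    (fun p u => Real.exp (coef n t x p * u)) (μ := fun _ => gaussianReal 0 1)
  rw [h]
  simp_rw [integral_exp_gaussian, coef_sq]
  rw [← Real.exp_sum]
  congr 1
  unfold numPairs
  rw [← Finset.sum_div, ← Finset.mul_sum]

lemma integrable_exp_energy (t : ℝ) (x : Fin n → Bool) :
    Integrable (fun g : Fin n × Fin n → ℝ => Real.exp (t * energy n g x))
      (stdGauss (Fin n × Fin n)) := by
  simp_rw [exp_energy_eq]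
  exact Integrable.fintype_prod (f := fun p u => Real.exp (coef n t x p * u))
    (μ := fun _ : Fin n × Fin n => gaussianReal 0 1)
    (fun p => integrable_exp_mul_gaussianReal (coef n t x p))

lemma integrable_partitionFn (t : ℝ) :
    Integrable (fun g : Fin n × Fin n → ℝ => partitionFn n t g) (stdGauss (Fin n × Fin n)) := by
  unfold partitionFn
  exact integrable_finsetSum _ fun x _ => integrable_exp_energy t x

lemma integral_partitionFn (t : ℝ) :
    ∫ g, partitionFn n t g ∂(stdGauss (Fin n × Fin n))
      = 2 ^ n * Real.exp (t ^ 2 * ((√(n : ℝ))⁻¹ * (√(n : ℝ))⁻¹) * numPairs n / 2) := by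
  unfold partitionFn
  rw [integral_finsetSum _ fun x _ => integrable_exp_energy t x]
  simp_rw [integral_exp_energy]
  simp

/-- First-moment bound on the disorder average of the mean energy. -/
lemma integral_avgEnergy_le (β t : ℝ) (ht : 0 < t) :
    ∫ g, avgEnergy n β g ∂(stdGauss (Fin n × Fin n))
      ≤ t⁻¹ * (n * Real.log 2 + t ^ 2 * ((√(n : ℝ))⁻¹ * (√(n : ℝ))⁻¹) * numPairs n / 2) := by
  set a : ℝ := 2 ^ n * Real.exp (t ^ 2 * ((√(n : ℝ))⁻¹ * (√(n : ℝ))⁻¹) * numPairs n / 2) with ha
  have hapos : 0 < a := mul_pos (pow_pos (by norm_num) n) (Real.exp_pos _)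
  have hint : Integrable (fun g : Fin n × Fin n → ℝ =>
      t⁻¹ * (partitionFn n t g / a - 1 + Real.log a)) (stdGauss (Fin n × Fin n)) :=
    ((((integrable_partitionFn t).div_const a).sub (integrable_const 1)).add
      (integrable_const _)).const_mul _
  have h1 := integral_mono (integrable_avgEnergy β) hint (fun g => avgEnergy_le β t a ht hapos g)
  have hi1 : Integrable (fun g : Fin n × Fin n → ℝ => partitionFn n t g / a)
      (stdGauss (Fin n × Fin n)) := (integrable_partitionFn t).div_const a
  have hi2 : Integrable (fun g : Fin n × Fin n → ℝ => partitionFn n t g / a - 1)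
      (stdGauss (Fin n × Fin n)) := hi1.sub (integrable_const 1)
  have h2 : ∫ g, t⁻¹ * (partitionFn n t g / a - 1 + Real.log a) ∂(stdGauss (Fin n × Fin n))
      = t⁻¹ * Real.log a := by
    rw [integral_const_mul, integral_add hi2 (integrable_const _),
      integral_sub hi1 (integrable_const 1),
      integral_div, integral_partitionFn, ← ha, div_self hapos.ne']
    simp
  have h3 : Real.log a
      = n * Real.log 2 + t ^ 2 * ((√(n : ℝ))⁻¹ * (√(n : ℝ))⁻¹) * numPairs n / 2 := by
    rw [ha, Real.log_mul (pow_pos (by norm_num) n).ne' (Real.exp_pos _).ne', Real.log_pow,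
      Real.log_exp]
  rw [h2, h3] at h1
  exact h1

end Vale.Agent.H40.SK
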