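import Vale.Agent.H40.SKGauss

/-!
Main estimate: for `β > 2 √(log 2)` the squared overlap of the SK Gibbs measure is macroscopic in
disorder average, hence the heat-bath spectral gap is `O(1/n)` with disorder probability bounded
below.
-/

namespace Vale.Agent.H40.SK

open MeasureTheory ProbabilityTheory Real

variable {n : ℕ}

lemma corr_swap (μ : (Fin n → Bool) → ℝ) (p : Fin n × Fin n) : corr μ p.swap = corr μ p := by
  unfold corr
  refine Finset.sum_congr rfl fun x _ => ?_
  simp only [Prod.fst_swap, Prod.snd_swap]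
  ring

lemma corrSq_eq (β : ℝ) (g : Fin n × Fin n → ℝ) :
    corrSq (gibbs n β g) = n + 2 * ∑ p : Fin n × Fin n,
      (if p.1 < p.2 then corr (gibbs n β g) p ^ 2 else 0) := by
  unfold corrSq
  rw [sum_pairs_split (fun p => corr (gibbs n β g) p ^ 2) (fun p => by rw [corr_swap])]
  congr 1
  rw [← sum_diag_one n]
  refine Finset.sum_congr rfl fun p _ => ?_
  split_ifs with h
  · have : p = (p.1, p.1) := by ext <;> simp [h]
    rw [this, corr_diag _ (gibbs_sum n β g)]
    simp
  · rfl

lemma continuous_corrSq (β : ℝ) :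
    Continuous (fun g : Fin n × Fin n → ℝ => corrSq (gibbs n β g)) := by
  unfold corrSq
  exact continuous_finsetSum _ fun p _ => (continuous_corr β p).pow 2

lemma corrSq_le (β : ℝ) (g : Fin n × Fin n → ℝ) : corrSq (gibbs n β g) ≤ (n : ℝ) ^ 2 := by
  unfold corrSq
  calc ∑ p : Fin n × Fin n, corr (gibbs n β g) p ^ 2
      ≤ ∑ _p : Fin n × Fin n, (1 : ℝ) := Finset.sum_le_sum fun p _ => corr_sq_le_one β p g
    _ = (n : ℝ) ^ 2 := by simp [sq]

lemma integrable_corrSq (β : ℝ) :
    Integrable (fun g : Fin n × Fin n → ℝ => corrSq (gibbs n β g)) (stdGauss (Fin n × Fin n)) := by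
  unfold corrSq
  exact integrable_finsetSum _ fun p _ => integrable_corr_sq β p

lemma integral_corrSq (β : ℝ) :
    ∫ g, corrSq (gibbs n β g) ∂(stdGauss (Fin n × Fin n)) = n + 2 * upperSq n β := by
  simp_rw [corrSq_eq]
  have hint : Integrable (fun g : Fin n × Fin n → ℝ => ∑ p : Fin n × Fin n,
      (if p.1 < p.2 then corr (gibbs n β g) p ^ 2 else 0)) (stdGauss (Fin n × Fin n)) := by
    refine integrable_finsetSum _ fun p _ => ?_
    split_ifs
    · exact integrable_corr_sq β p
    · exact integrable_zero _ _ _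
  rw [integral_add (integrable_const _) (hint.const_mul 2), integral_const_mul,
    integral_finsetSum]
  · simp only [integral_const, probReal_univ, smul_eq_mul, one_mul]
    congr 2
    unfold upperSq
    refine Finset.sum_congr rfl fun p _ => ?_
    split_ifs <;> simp
  · intro p _
    split_ifs
    · exact integrable_corr_sq β p
    · exact integrable_zero _ _ _

/-- The key inequality: for `β > 0` the averaged squared correlations of pairs cannot all be
small. -/
lemma key_ineq (hn : 1 ≤ n) (β : ℝ) :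
    β * (numPairs n - upperSq n β) ≤ √(Real.log 2) * (n : ℝ) ^ 2 := by
  set r := √(Real.log 2) with hr
  have hlog : 0 < Real.log 2 := Real.log_pos (by norm_num)
  have hrpos : 0 < r := Real.sqrt_pos.2 hlog
  have hr2 : r ^ 2 = Real.log 2 := Real.sq_sqrt hlog.le
  have hnpos : (0 : ℝ) < n := by exact_mod_cast hn
  have hs : (√(n : ℝ))⁻¹ * (√(n : ℝ))⁻¹ = (n : ℝ)⁻¹ := by
    rw [← mul_inv, Real.mul_self_sqrt hnpos.le]
  have h := integral_avgEnergy_le (n := n) β (2 * r) (by positivity)
  rw [integral_avgEnergy, hs, ← hr2] at h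
  have hm := numPairs_le n
  have hm0 := numPairs_nonneg n
  have h' : β * (numPairs n - upperSq n β)
      ≤ (n : ℝ) ^ 2 * r / 2 + r * numPairs n := by
    have h2 := mul_le_mul_of_nonneg_left h hnpos.le
    have e1 : (n : ℝ) * (β * (n : ℝ)⁻¹ * (numPairs n - upperSq n β))
        = β * (numPairs n - upperSq n β) := by
      field_simp
    have e2 : (n : ℝ) * ((2 * r)⁻¹ * (n * r ^ 2 + (2 * r) ^ 2 * (n : ℝ)⁻¹ * numPairs n / 2))
        = (n : ℝ) ^ 2 * r / 2 + r * numPairs n := by
      field_simp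
    rw [e1, e2] at h2
    exact h2
  nlinarith

/-- Disorder average of the squared overlap: `E ∑_{i,j} ⟨x_i x_j⟩² ≥ n² (1 - 2√(log 2)/β)`. -/
lemma integral_corrSq_ge (hn : 1 ≤ n) (β : ℝ) (hβ : 0 < β) :
    (n : ℝ) ^ 2 * (1 - 2 * √(Real.log 2) / β)
      ≤ ∫ g, corrSq (gibbs n β g) ∂(stdGauss (Fin n × Fin n)) := by
  rw [integral_corrSq]
  have h1 := key_ineq hn β
  have h2 := numPairs_eq n
  have h3 : numPairs n - upperSq n β ≤ √(Real.log 2) * (n : ℝ) ^ 2 / β := by
    rw [le_div_iff₀ hβ]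
    linarith
  have h4 : (n : ℝ) ^ 2 * (1 - 2 * √(Real.log 2) / β)
      = (n : ℝ) ^ 2 - 2 * (√(Real.log 2) * (n : ℝ) ^ 2 / β) := by
    ring
  rw [h4]
  linarith

/-- Main theorem: for `β > 2√(log 2)`, with disorder probability at least `c/2`, where
`c = 1 - 2√(log 2)/β`, the spectral gap is at most `2/(c n)`. -/
theorem gap_small (hn : 1 ≤ n) (β : ℝ) (hβ : 2 * √(Real.log 2) < β) :
    ENNReal.ofReal ((1 - 2 * √(Real.log 2) / β) / 2) ≤
      (Measure.pi (fun _ : Fin n × Fin n => gaussianReal 0 1))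
        {g | spectralGap (gibbs n β g) ≤ 2 / ((1 - 2 * √(Real.log 2) / β) * n)} := by
  set c := 1 - 2 * √(Real.log 2) / β with hc
  have hlog : 0 < Real.log 2 := Real.log_pos (by norm_num)
  have hrpos : 0 < √(Real.log 2) := Real.sqrt_pos.2 hlog
  have hβpos : 0 < β := by linarith
  have hcpos : 0 < c := by
    rw [hc, sub_pos, div_lt_one hβpos]
    exact hβ
  have hnpos : (0 : ℝ) < n := by exact_mod_cast hn
  let γ : Measure (Fin n × Fin n → ℝ) := stdGauss (Fin n × Fin n)
  let A : Set (Fin n × Fin n → ℝ) := {g | c * (n : ℝ) ^ 2 / 2 ≤ corrSq (gibbs n β g)}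
  have hA : MeasurableSet A :=
    measurableSet_le measurable_const (continuous_corrSq β).measurable
  -- on `A` the gap is small
  have hsub : A ⊆ {g | spectralGap (gibbs n β g) ≤ 2 / (c * n)} := by
    intro g hg
    have hg' : c * (n : ℝ) ^ 2 / 2 ≤ corrSq (gibbs n β g) := hg
    have h1 := spectralGap_le_corrSq hn β g
    have hpos : 0 < c * (n : ℝ) ^ 2 / 2 := by positivity
    have h2 : (n : ℝ) / corrSq (gibbs n β g) ≤ n / (c * (n : ℝ) ^ 2 / 2) :=
      div_le_div_of_nonneg_left hnpos.le hpos hg'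
    have h3 : (n : ℝ) / (c * (n : ℝ) ^ 2 / 2) = 2 / (c * n) := by
      field_simp
    show spectralGap (gibbs n β g) ≤ 2 / (c * n)
    rw [← h3]
    exact h1.trans h2
  -- the measure of `A`
  have hint := integrable_corrSq (n := n) β
  have hpt : ∀ g, corrSq (gibbs n β g)
      ≤ (n : ℝ) ^ 2 * A.indicator (fun _ => (1 : ℝ)) g + c * (n : ℝ) ^ 2 / 2 := by
    intro g
    by_cases hg : g ∈ A
    · rw [Set.indicator_of_mem hg]
      have := corrSq_le β g
      have : 0 ≤ c * (n : ℝ) ^ 2 / 2 := by positivity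
      linarith
    · rw [Set.indicator_of_notMem hg]
      have : corrSq (gibbs n β g) < c * (n : ℝ) ^ 2 / 2 := not_le.1 hg
      linarith
  have hind : Integrable (fun g => (n : ℝ) ^ 2 * A.indicator (fun _ => (1 : ℝ)) g) γ :=
    ((integrable_const (1 : ℝ)).indicator hA).const_mul _
  have hmono := integral_mono hint (hind.add (integrable_const _)) hpt
  have hrhs : ∫ g, ((n : ℝ) ^ 2 * A.indicator (fun _ => (1 : ℝ)) g + c * (n : ℝ) ^ 2 / 2) ∂γ
      = (n : ℝ) ^ 2 * γ.real A + c * (n : ℝ) ^ 2 / 2 := by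
    rw [integral_add hind (integrable_const _), integral_const_mul,
      integral_indicator hA, integral_const, integral_const]
    simp
  have hge := integral_corrSq_ge hn β hβpos
  have hreal : c / 2 ≤ γ.real A := by
    have h5 : (n : ℝ) ^ 2 * c ≤ (n : ℝ) ^ 2 * γ.real A + c * (n : ℝ) ^ 2 / 2 := by
      calc (n : ℝ) ^ 2 * c ≤ ∫ g, corrSq (gibbs n β g) ∂γ := hge
        _ ≤ _ := hmono
        _ = _ := hrhs
    have hn2 : (0 : ℝ) < (n : ℝ) ^ 2 := by positivity
    have h6 : (n : ℝ) ^ 2 * (c / 2) ≤ (n : ℝ) ^ 2 * γ.real A := by linarith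
    exact le_of_mul_le_mul_left h6 hn2
  calc ENNReal.ofReal (c / 2) ≤ γ A := by
        rw [ENNReal.ofReal_le_iff_le_toReal (measure_ne_top γ A)]
        exact hreal
    _ ≤ γ {g | spectralGap (gibbs n β g) ≤ 2 / (c * n)} := measure_mono hsub

end Vale.Agent.H40.SK
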