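import Vale.Agent.H40.SKMain
import Vale.Agent.H40.Mixing

/-!
Slow mixing of heat-bath dynamics for the SK model at `β > 2 √(log 2)`: with disorder probability
bounded below, both the spectral gap is `O(1/n)` and the total-variation mixing time is at least
of order `n`.
-/

namespace Vale.Agent.H40.SK

open MeasureTheory ProbabilityTheory Real

variable {n : ℕ}

/-- With disorder probability at least `c/2` the squared overlap is macroscopic. -/
lemma measure_corrSq_ge (hn : 1 ≤ n) (β : ℝ) (hβ : 2 * √(Real.log 2) < β) :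
    ENNReal.ofReal ((1 - 2 * √(Real.log 2) / β) / 2) ≤
      (Measure.pi (fun _ : Fin n × Fin n => gaussianReal 0 1))
        {g | (1 - 2 * √(Real.log 2) / β) * (n : ℝ) ^ 2 / 2 ≤ corrSq (gibbs n β g)} := by
  set c := 1 - 2 * √(Real.log 2) / β with hc
  have hlog : 0 < Real.log 2 := Real.log_pos (by norm_num)
  have hrpos : 0 < √(Real.log 2) := Real.sqrt_pos.2 hlog
  have hβpos : 0 < β := by linarith
  have hcpos : 0 < c := by
    rw [hc, sub_pos, div_lt_one hβpos]
    exact hβ
  have hnpos : (0 : ℝ) < n := by exact_mod_cast hn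
  let γ : Measure (Fin n × Fin n → ℝ) := stdGauss (Fin n × Fin n)
  let A : Set (Fin n × Fin n → ℝ) := {g | c * (n : ℝ) ^ 2 / 2 ≤ corrSq (gibbs n β g)}
  have hA : MeasurableSet A :=
    measurableSet_le measurable_const (continuous_corrSq β).measurable
  have hint := integrable_corrSq (n := n) β
  have hpt : ∀ g, corrSq (gibbs n β g)
      ≤ (n : ℝ) ^ 2 * A.indicator (fun _ => (1 : ℝ)) g + c * (n : ℝ) ^ 2 / 2 := by
    intro g
    by_cases hg : g ∈ A
    · rw [Set.indicator_of_mem hg]
      have := corrSq_le β g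
      have : 0 ≤ c * (n : ℝ) ^ 2 / 2 := by positivity
      linarith
    · rw [Set.indicator_of_notMem hg]
      have : corrSq (gibbs n β g) < c * (n : ℝ) ^ 2 / 2 := not_le.1 hg
      linarith
  have hind : Integrable (fun g => (n : ℝ) ^ 2 * A.indicator (fun _ => (1 : ℝ)) g) γ :=
    ((integrable_const (1 : ℝ)).indicator hA).const_mul _
  have hmono := integral_mono hint (hind.add (integrable_const _)) hpt
  have hrhs : ∫ g, ((n : ℝ) ^ 2 * A.indicator (fun _ => (1 : ℝ)) g + c * (n : ℝ) ^ 2 / 2) ∂γ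
      = (n : ℝ) ^ 2 * γ.real A + c * (n : ℝ) ^ 2 / 2 := by
    rw [integral_add hind (integrable_const _), integral_const_mul,
      integral_indicator hA, integral_const, integral_const]
    simp
  have hge := integral_corrSq_ge hn β hβpos
  have hreal : c / 2 ≤ γ.real A := by
    have h5 : (n : ℝ) ^ 2 * c ≤ (n : ℝ) ^ 2 * γ.real A + c * (n : ℝ) ^ 2 / 2 := by
      calc (n : ℝ) ^ 2 * c ≤ ∫ g, corrSq (gibbs n β g) ∂γ := hge
        _ ≤ _ := hmono
        _ = _ := hrhs
    have hn2 : (0 : ℝ) < (n : ℝ) ^ 2 := by positivity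
    have h6 : (n : ℝ) ^ 2 * (c / 2) ≤ (n : ℝ) ^ 2 * γ.real A := by linarith
    exact le_of_mul_le_mul_left h6 hn2
  show ENNReal.ofReal (c / 2) ≤ γ A
  rw [ENNReal.ofReal_le_iff_le_toReal (measure_ne_top γ A)]
  exact hreal

/-- Deterministic statement: if the squared overlap is at least `a > 0`, then no time
`t < log 2 · a / n` is a mixing time. -/
lemma not_mixed_of_corrSq (β : ℝ) (g : Fin n × Fin n → ℝ) (a : ℝ) (ha : 0 < a)
    (hg : a ≤ corrSq (gibbs n β g)) (t : ℝ) (ht : 0 ≤ t) (hlt : t * n < Real.log 2 * a) :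
    ∃ x, 1 / 4 < tvDist (gibbs n β g) t x := by
  set μ := gibbs n β g with hμdef
  have hμ : ∀ x, 0 < μ x := gibbs_pos n β g
  have h1 : ∑ x, μ x = 1 := gibbs_sum n β g
  obtain ⟨y, hy⟩ := exists_lin μ hμ h1
  have hmean : ∑ x, μ x * lin y x = 0 := by
    have h := sum_negCfg (fun x => μ x * lin y x)
    simp only [lin_negCfg, hμdef, gibbs_negCfg] at h
    rw [← hμdef] at h
    have h' : ∑ x, μ x * -lin y x = -∑ x, μ x * lin y x := by
      rw [← Finset.sum_neg_distrib]
      exact Finset.sum_congr rfl fun x _ => by ring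
    rw [h'] at h
    linarith
  have hvar : variance μ (lin y) = ∑ x, μ x * lin y x ^ 2 := by
    unfold variance
    rw [hmean]; ring
  have hva : a ≤ variance μ (lin y) := by rw [hvar]; exact hg.trans hy
  have hvpos : 0 < variance μ (lin y) := lt_of_lt_of_le ha hva
  have hd := dirichletForm_lin_le μ hμ h1 y
  have hlog : 0 < Real.log 2 := Real.log_pos (by norm_num)
  refine mixing_lower μ hμ h1 (lin y) hvpos t ht ?_
  calc t * dirichletForm μ (lin y) ≤ t * n := mul_le_mul_of_nonneg_left hd ht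
    _ < Real.log 2 * a := hlt
    _ ≤ Real.log 2 * variance μ (lin y) := mul_le_mul_of_nonneg_left hva hlog.le

/-- Main theorem: for `β > 2√(log 2)`, with disorder probability at least `c/2`, where
`c = 1 - 2√(log 2)/β`, the spectral gap is at most `2/(c n)` and no time below
`log 2 · c n / 2` is a total-variation mixing time. -/
theorem slow_mixing (hn : 1 ≤ n) (β : ℝ) (hβ : 2 * √(Real.log 2) < β) :
    ENNReal.ofReal ((1 - 2 * √(Real.log 2) / β) / 2) ≤
      (Measure.pi (fun _ : Fin n × Fin n => gaussianReal 0 1))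
        {g | spectralGap (gibbs n β g) ≤ 2 / ((1 - 2 * √(Real.log 2) / β) * n) ∧
          ∀ t : ℝ, 0 ≤ t → t < Real.log 2 * ((1 - 2 * √(Real.log 2) / β) * n / 2) →
            ∃ x, 1 / 4 < tvDist (gibbs n β g) t x} := by
  refine (measure_corrSq_ge hn β hβ).trans (measure_mono ?_)
  set c := 1 - 2 * √(Real.log 2) / β with hc
  have hlog : 0 < Real.log 2 := Real.log_pos (by norm_num)
  have hβpos : 0 < β := by
    have : 0 < √(Real.log 2) := Real.sqrt_pos.2 hlog
    linarith
  have hcpos : 0 < c := by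
    rw [hc, sub_pos, div_lt_one hβpos]
    exact hβ
  have hnpos : (0 : ℝ) < n := by exact_mod_cast hn
  intro g hg
  have hg' : c * (n : ℝ) ^ 2 / 2 ≤ corrSq (gibbs n β g) := hg
  have hpos : 0 < c * (n : ℝ) ^ 2 / 2 := by positivity
  refine ⟨?_, ?_⟩
  · have h1 := spectralGap_le_corrSq hn β g
    have h2 : (n : ℝ) / corrSq (gibbs n β g) ≤ n / (c * (n : ℝ) ^ 2 / 2) :=
      div_le_div_of_nonneg_left hnpos.le hpos hg'
    have h3 : (n : ℝ) / (c * (n : ℝ) ^ 2 / 2) = 2 / (c * n) := by
      field_simp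
    rw [← h3]
    exact h1.trans h2
  · intro t ht hlt
    refine not_mixed_of_corrSq β g (c * (n : ℝ) ^ 2 / 2) hpos hg' t ht ?_
    calc t * n < Real.log 2 * (c * n / 2) * n := mul_lt_mul_of_pos_right hlt hnpos
      _ = Real.log 2 * (c * (n : ℝ) ^ 2 / 2) := by ring

end Vale.Agent.H40.SK
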