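import Vale.Agent.H40.SKMix

/-!
A high-probability version of slow relaxation for the SK model at `β > 2 √(log 2)`.

Gaussian integration by parts is applied to `W^(-θ) ⟨x_i x_j⟩`, where `W = ∑_{i,j} ⟨x_i x_j⟩²` is
`n²` times the mean squared overlap.  This shows that `W ≤ n² / K` has disorder probability at
most `(10/c²) K^(-c/16)`, `c = 1 - 2 √(log 2)/β`, uniformly in `n`.
-/

namespace Vale.Agent.H40.SK

open MeasureTheory ProbabilityTheory Real

variable {n : ℕ}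

/-! ### Four-spin correlations and derivatives in one coupling -/

/-- numerator of the four-spin correlation `⟨x_p x_q⟩` -/
noncomputable def corrNum4 (n : ℕ) (β : ℝ) (p q : Fin n × Fin n) (g : Fin n × Fin n → ℝ) : ℝ :=
  ∑ x : Fin n → Bool, Real.exp (β * energy n g x) *
    ((spin (x p.1) * spin (x p.2)) * (spin (x q.1) * spin (x q.2)))

/-- four-spin correlation `⟨x_p x_q⟩` of the SK Gibbs measure -/
noncomputable def corr4 (n : ℕ) (β : ℝ) (p q : Fin n × Fin n) (g : Fin n × Fin n → ℝ) : ℝ :=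
  corrNum4 n β p q g / partitionFn n β g

lemma continuous_corr4 (β : ℝ) (p q : Fin n × Fin n) :
    Continuous (fun g : Fin n × Fin n → ℝ => corr4 n β p q g) := by
  unfold corr4 corrNum4
  exact (continuous_finsetSum _ fun x _ =>
    (Real.continuous_exp.comp (continuous_const.mul (continuous_energy x))).mul
      continuous_const).div
    (continuous_partitionFn β) (fun g => (partitionFn_pos n β g).ne')

lemma abs_corr4_le (β : ℝ) (p q : Fin n × Fin n) (g : Fin n × Fin n → ℝ) :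
    |corr4 n β p q g| ≤ 1 := by
  unfold corr4 corrNum4
  rw [abs_div, abs_of_pos (partitionFn_pos n β g), div_le_one (partitionFn_pos n β g)]
  calc |∑ x : Fin n → Bool, Real.exp (β * energy n g x) *
          ((spin (x p.1) * spin (x p.2)) * (spin (x q.1) * spin (x q.2)))|
      ≤ ∑ x : Fin n → Bool, |Real.exp (β * energy n g x) *
          ((spin (x p.1) * spin (x p.2)) * (spin (x q.1) * spin (x q.2)))| :=
        Finset.abs_sum_le_sum_abs _ _
    _ = ∑ x : Fin n → Bool, Real.exp (β * energy n g x) := by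
        refine Finset.sum_congr rfl fun x _ => ?_
        rw [abs_mul, abs_mul, abs_mul, abs_mul, abs_spin, abs_spin, abs_spin, abs_spin,
          abs_of_pos (Real.exp_pos _)]
        ring
    _ = partitionFn n β g := rfl

lemma corrNum_hasDerivAt_gen (β : ℝ) (p : Fin n × Fin n) (hp : p.1 < p.2) (q : Fin n × Fin n)
    (g : Fin n × Fin n → ℝ) (u : ℝ) :
    HasDerivAt (fun v => corrNum n β q (Function.update g p v))
      (β * (√(n : ℝ))⁻¹ * corrNum4 n β p q (Function.update g p u)) u := by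
  unfold corrNum corrNum4
  have hterm : ∀ x ∈ (Finset.univ : Finset (Fin n → Bool)),
      HasDerivAt (fun v => Real.exp (β * energy n (Function.update g p v) x)
          * (spin (x q.1) * spin (x q.2)))
        (β * (√(n : ℝ))⁻¹ * (Real.exp (β * energy n (Function.update g p u) x) *
          ((spin (x p.1) * spin (x p.2)) * (spin (x q.1) * spin (x q.2))))) u := by
    intro x _
    have h := (((energy_hasDerivAt g p x u).const_mul β).exp).mul_const
      (spin (x q.1) * spin (x q.2))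
    refine h.congr_deriv ?_
    rw [if_pos hp]
    ring
  have := HasDerivAt.fun_sum hterm
  refine this.congr_deriv ?_
  rw [Finset.mul_sum]

/-- Derivative of any two-spin correlation in the coupling of a pair `i < j`. -/
lemma corr_hasDerivAt_gen (β : ℝ) (p : Fin n × Fin n) (hp : p.1 < p.2) (q : Fin n × Fin n)
    (g : Fin n × Fin n → ℝ) (u : ℝ) :
    HasDerivAt (fun v => corr (gibbs n β (Function.update g p v)) q)
      (β * (√(n : ℝ))⁻¹ * (corr4 n β p q (Function.update g p u)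
        - corr (gibbs n β (Function.update g p u)) p
          * corr (gibbs n β (Function.update g p u)) q)) u := by
  simp_rw [corr_gibbs_eq]
  unfold corr4
  have hZ := (partitionFn_pos n β (Function.update g p u)).ne'
  have h := (corrNum_hasDerivAt_gen β p hp q g u).div (partitionFn_hasDerivAt β p hp g u) hZ
  refine h.congr_deriv ?_
  field_simp

/-- derivative of `corrSq` in the coupling `p` -/
noncomputable def dW (n : ℕ) (β : ℝ) (p : Fin n × Fin n) (g : Fin n × Fin n → ℝ) : ℝ :=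
  ∑ q : Fin n × Fin n, 2 * corr (gibbs n β g) q * (β * (√(n : ℝ))⁻¹ *
    (corr4 n β p q g - corr (gibbs n β g) p * corr (gibbs n β g) q))

lemma corrSq_hasDerivAt (β : ℝ) (p : Fin n × Fin n) (hp : p.1 < p.2) (g : Fin n × Fin n → ℝ)
    (u : ℝ) :
    HasDerivAt (fun v => corrSq (gibbs n β (Function.update g p v)))
      (dW n β p (Function.update g p u)) u := by
  unfold corrSq dW
  have hterm : ∀ q ∈ (Finset.univ : Finset (Fin n × Fin n)),
      HasDerivAt (fun v => corr (gibbs n β (Function.update g p v)) q ^ 2)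
        (2 * corr (gibbs n β (Function.update g p u)) q * (β * (√(n : ℝ))⁻¹ *
          (corr4 n β p q (Function.update g p u) - corr (gibbs n β (Function.update g p u)) p *
            corr (gibbs n β (Function.update g p u)) q))) u := by
    intro q _
    have h := (corr_hasDerivAt_gen β p hp q g u).pow 2
    refine h.congr_deriv ?_
    simp
  exact HasDerivAt.fun_sum hterm

lemma continuous_dW (β : ℝ) (p : Fin n × Fin n) :
    Continuous (fun g : Fin n × Fin n → ℝ => dW n β p g) := by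
  unfold dW
  refine continuous_finsetSum _ fun q _ => ?_
  exact (continuous_const.mul (continuous_corr β q)).mul
    (continuous_const.mul ((continuous_corr4 β p q).sub
      ((continuous_corr β p).mul (continuous_corr β q))))

lemma abs_corr_gibbs_le (β : ℝ) (p : Fin n × Fin n) (g : Fin n × Fin n → ℝ) :
    |corr (gibbs n β g) p| ≤ 1 :=
  abs_corr_le (gibbs n β g) (gibbs_pos n β g) (gibbs_sum n β g) p

lemma corrSq_ge (β : ℝ) (g : Fin n × Fin n → ℝ) : (n : ℝ) ≤ corrSq (gibbs n β g) := by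
  rw [corrSq_eq]
  have : 0 ≤ ∑ p : Fin n × Fin n, (if p.1 < p.2 then corr (gibbs n β g) p ^ 2 else 0) :=
    Finset.sum_nonneg fun p _ => by split_ifs <;> positivity
  linarith

/-! ### Pairs `i < j` -/

/-- the set of pairs `i < j` -/
def upper (n : ℕ) : Finset (Fin n × Fin n) := Finset.univ.filter (fun p => p.1 < p.2)

lemma mem_upper {p : Fin n × Fin n} : p ∈ upper n ↔ p.1 < p.2 := by
  simp [upper]

lemma sum_upper (F : Fin n × Fin n → ℝ) :
    ∑ p ∈ upper n, F p = ∑ p : Fin n × Fin n, (if p.1 < p.2 then F p else 0) := by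
  unfold upper
  rw [Finset.sum_filter]

lemma sum_upper_one : ∑ _p ∈ upper n, (1 : ℝ) = numPairs n := by
  rw [sum_upper]; rfl

lemma corrSq_eq_upper (β : ℝ) (g : Fin n × Fin n → ℝ) :
    corrSq (gibbs n β g) = n + 2 * ∑ p ∈ upper n, corr (gibbs n β g) p ^ 2 := by
  rw [corrSq_eq, sum_upper]

/-! ### Bounds on the derivative of `corrSq` -/

lemma abs_dW_le (β : ℝ) (p : Fin n × Fin n) (g : Fin n × Fin n → ℝ) :
    |dW n β p g| ≤ 4 * (n : ℝ) ^ 2 * (|β| * (√(n : ℝ))⁻¹) := by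
  unfold dW
  have hs : 0 ≤ (√(n : ℝ))⁻¹ := inv_nonneg.2 (Real.sqrt_nonneg _)
  have hbs : 0 ≤ |β| * (√(n : ℝ))⁻¹ := mul_nonneg (abs_nonneg _) hs
  calc |∑ q : Fin n × Fin n, 2 * corr (gibbs n β g) q * (β * (√(n : ℝ))⁻¹ *
          (corr4 n β p q g - corr (gibbs n β g) p * corr (gibbs n β g) q))|
      ≤ ∑ q : Fin n × Fin n, |2 * corr (gibbs n β g) q * (β * (√(n : ℝ))⁻¹ *
          (corr4 n β p q g - corr (gibbs n β g) p * corr (gibbs n β g) q))| :=
        Finset.abs_sum_le_sum_abs _ _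
    _ ≤ ∑ _q : Fin n × Fin n, 4 * (|β| * (√(n : ℝ))⁻¹) := by
        refine Finset.sum_le_sum fun q _ => ?_
        have hq := abs_corr_gibbs_le β q g
        have hp := abs_corr_gibbs_le β p g
        have h4 := abs_corr4_le β p q g
        have hd : |corr4 n β p q g - corr (gibbs n β g) p * corr (gibbs n β g) q| ≤ 2 := by
          have h5 : |corr (gibbs n β g) p * corr (gibbs n β g) q| ≤ 1 := by
            rw [abs_mul]
            exact mul_le_one₀ hp (abs_nonneg _) hq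
          calc |corr4 n β p q g - corr (gibbs n β g) p * corr (gibbs n β g) q|
              ≤ |corr4 n β p q g| + |corr (gibbs n β g) p * corr (gibbs n β g) q| := abs_sub _ _
            _ ≤ 2 := by linarith
        rw [abs_mul, abs_mul, abs_mul, abs_mul, abs_two, abs_of_nonneg hs]
        have h6 : |corr (gibbs n β g) q| *
            |corr4 n β p q g - corr (gibbs n β g) p * corr (gibbs n β g) q| ≤ 1 * 2 :=
          mul_le_mul hq hd (abs_nonneg _) (by norm_num)
        calc 2 * |corr (gibbs n β g) q| * (|β| * (√(n : ℝ))⁻¹ *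
              |corr4 n β p q g - corr (gibbs n β g) p * corr (gibbs n β g) q|)
            = 2 * (|β| * (√(n : ℝ))⁻¹) * (|corr (gibbs n β g) q| *
              |corr4 n β p q g - corr (gibbs n β g) p * corr (gibbs n β g) q|) := by ring
          _ ≤ 2 * (|β| * (√(n : ℝ))⁻¹) * (1 * 2) :=
              mul_le_mul_of_nonneg_left h6 (by positivity)
          _ = 4 * (|β| * (√(n : ℝ))⁻¹) := by ring
    _ = 4 * (n : ℝ) ^ 2 * (|β| * (√(n : ℝ))⁻¹) := by
        simp [sq]
        ring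

lemma abs_corr_mul_dW_le (β : ℝ) (hβ : 0 ≤ β) (p : Fin n × Fin n) (g : Fin n × Fin n → ℝ) :
    |corr (gibbs n β g) p * dW n β p g| ≤ 2 * β * (√(n : ℝ))⁻¹ *
      ((n : ℝ) ^ 2 * corr (gibbs n β g) p ^ 2 + corrSq (gibbs n β g)) := by
  unfold dW
  have hs : 0 ≤ (√(n : ℝ))⁻¹ := inv_nonneg.2 (Real.sqrt_nonneg _)
  have hbs : 0 ≤ 2 * β * (√(n : ℝ))⁻¹ := by positivity
  rw [Finset.mul_sum]
  calc |∑ q : Fin n × Fin n, corr (gibbs n β g) p * (2 * corr (gibbs n β g) q *
          (β * (√(n : ℝ))⁻¹ *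
            (corr4 n β p q g - corr (gibbs n β g) p * corr (gibbs n β g) q)))|
      ≤ ∑ q : Fin n × Fin n, |corr (gibbs n β g) p * (2 * corr (gibbs n β g) q *
          (β * (√(n : ℝ))⁻¹ *
            (corr4 n β p q g - corr (gibbs n β g) p * corr (gibbs n β g) q)))| :=
        Finset.abs_sum_le_sum_abs _ _
    _ ≤ ∑ q : Fin n × Fin n, 2 * β * (√(n : ℝ))⁻¹ *
          (corr (gibbs n β g) p ^ 2 + corr (gibbs n β g) q ^ 2) := by
        refine Finset.sum_le_sum fun q _ => ?_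
        set a := corr (gibbs n β g) p
        set b := corr (gibbs n β g) q
        set d := corr4 n β p q g - a * b
        have hq : |b| ≤ 1 := abs_corr_gibbs_le β q g
        have hp : |a| ≤ 1 := abs_corr_gibbs_le β p g
        have h4 := abs_corr4_le β p q g
        have hd : |d| ≤ 2 := by
          have h5 : |a * b| ≤ 1 := by
            rw [abs_mul]
            exact mul_le_one₀ hp (abs_nonneg _) hq
          calc |d| ≤ |corr4 n β p q g| + |a * b| := abs_sub _ _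
            _ ≤ 2 := by linarith
        have h7 : |a * b * d| ≤ a ^ 2 + b ^ 2 := by
          rw [abs_mul, abs_mul]
          have h8 : |a| * |b| * |d| ≤ |a| * |b| * 2 :=
            mul_le_mul_of_nonneg_left hd (mul_nonneg (abs_nonneg _) (abs_nonneg _))
          have h9 : 0 ≤ (|a| - |b|) ^ 2 := sq_nonneg _
          have h10 : |a| ^ 2 = a ^ 2 := sq_abs a
          have h11 : |b| ^ 2 = b ^ 2 := sq_abs b
          nlinarith
        have e : a * (2 * b * (β * (√(n : ℝ))⁻¹ * d)) = 2 * β * (√(n : ℝ))⁻¹ * (a * b * d) := by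
          ring
        rw [e, abs_mul, abs_of_nonneg hbs]
        exact mul_le_mul_of_nonneg_left h7 hbs
    _ = 2 * β * (√(n : ℝ))⁻¹ *
          ((n : ℝ) ^ 2 * corr (gibbs n β g) p ^ 2 + corrSq (gibbs n β g)) := by
        rw [← Finset.mul_sum, Finset.sum_add_distrib]
        unfold corrSq
        simp [sq]

/-! ### The weight `W^(-θ)` and Gaussian integration by parts -/

/-- the weight `corrSq^(-θ)` -/
noncomputable def wt (n : ℕ) (β θ : ℝ) (g : Fin n × Fin n → ℝ) : ℝ :=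
  corrSq (gibbs n β g) ^ (-θ)

/-- derivative in the coupling `p` of `wt * corr p` -/
noncomputable def dF (n : ℕ) (β θ : ℝ) (p : Fin n × Fin n) (g : Fin n × Fin n → ℝ) : ℝ :=
  dW n β p g * (-θ) * corrSq (gibbs n β g) ^ (-θ - 1) * corr (gibbs n β g) p
    + wt n β θ g * (β * (√(n : ℝ))⁻¹ * (1 - corr (gibbs n β g) p ^ 2))

lemma one_le_corrSq (hn : 1 ≤ n) (β : ℝ) (g : Fin n × Fin n → ℝ) :
    1 ≤ corrSq (gibbs n β g) := by
  have h := corrSq_ge β g
  have hn' : (1 : ℝ) ≤ n := by exact_mod_cast hn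
  linarith

lemma wt_pos (hn : 1 ≤ n) (β θ : ℝ) (g : Fin n × Fin n → ℝ) : 0 < wt n β θ g :=
  Real.rpow_pos_of_pos (lt_of_lt_of_le one_pos (one_le_corrSq hn β g)) _

lemma wt_le_one (hn : 1 ≤ n) (β θ : ℝ) (hθ : 0 ≤ θ) (g : Fin n × Fin n → ℝ) :
    wt n β θ g ≤ 1 :=
  Real.rpow_le_one_of_one_le_of_nonpos (one_le_corrSq hn β g) (by linarith)

lemma continuous_wt (hn : 1 ≤ n) (β θ : ℝ) :
    Continuous (fun g : Fin n × Fin n → ℝ => wt n β θ g) := by
  unfold wt
  exact (continuous_corrSq β).rpow_const fun g =>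
    Or.inl (lt_of_lt_of_le one_pos (one_le_corrSq hn β g)).ne'

lemma continuous_dF (hn : 1 ≤ n) (β θ : ℝ) (p : Fin n × Fin n) :
    Continuous (fun g : Fin n × Fin n → ℝ => dF n β θ p g) := by
  unfold dF
  have h1 : Continuous (fun g : Fin n × Fin n → ℝ => corrSq (gibbs n β g) ^ (-θ - 1)) :=
    (continuous_corrSq β).rpow_const fun g =>
      Or.inl (lt_of_lt_of_le one_pos (one_le_corrSq hn β g)).ne'
  exact ((((continuous_dW β p).mul continuous_const).mul h1).mul (continuous_corr β p)).add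
    ((continuous_wt hn β θ).mul (continuous_const.mul
      (continuous_const.sub ((continuous_corr β p).pow 2))))

lemma wt_corr_hasDerivAt (hn : 1 ≤ n) (β θ : ℝ) (p : Fin n × Fin n) (hp : p.1 < p.2)
    (g : Fin n × Fin n → ℝ) (u : ℝ) :
    HasDerivAt (fun v => wt n β θ (Function.update g p v)
        * corr (gibbs n β (Function.update g p v)) p)
      (dF n β θ p (Function.update g p u)) u := by
  have hW : corrSq (gibbs n β (Function.update g p u)) ≠ 0 :=
    (lt_of_lt_of_le one_pos (one_le_corrSq hn β _)).ne'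
  have h1 := (corrSq_hasDerivAt β p hp g u).rpow_const (p := -θ) (Or.inl hW)
  have h2 := corr_hasDerivAt β p hp g u
  unfold wt dF
  exact h1.mul h2

lemma abs_dF_le (hn : 1 ≤ n) (β θ : ℝ) (hθ : 0 ≤ θ) (p : Fin n × Fin n)
    (g : Fin n × Fin n → ℝ) :
    |dF n β θ p g| ≤ 1 + 4 * (n : ℝ) ^ 2 * (|β| * (√(n : ℝ))⁻¹) * θ + |β| * (√(n : ℝ))⁻¹ := by
  unfold dF
  have hs : 0 ≤ (√(n : ℝ))⁻¹ := inv_nonneg.2 (Real.sqrt_nonneg _)
  have hbs : 0 ≤ |β| * (√(n : ℝ))⁻¹ := mul_nonneg (abs_nonneg _) hs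
  have hW1 := one_le_corrSq hn β g
  have hr0 : 0 ≤ corrSq (gibbs n β g) ^ (-θ - 1) :=
    (Real.rpow_pos_of_pos (lt_of_lt_of_le one_pos hW1) _).le
  have hr1 : corrSq (gibbs n β g) ^ (-θ - 1) ≤ 1 :=
    Real.rpow_le_one_of_one_le_of_nonpos hW1 (by linarith)
  have hw0 := (wt_pos hn β θ g).le
  have hw1 := wt_le_one hn β θ hθ g
  have hc := abs_corr_gibbs_le β p g
  have hc2 := corr_sq_le_one β p g
  have hc0 : 0 ≤ corr (gibbs n β g) p ^ 2 := sq_nonneg _
  have hD := abs_dW_le β p g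
  have hD0 : 0 ≤ 4 * (n : ℝ) ^ 2 * (|β| * (√(n : ℝ))⁻¹) := by positivity
  have t1 : |dW n β p g * (-θ) * corrSq (gibbs n β g) ^ (-θ - 1) * corr (gibbs n β g) p|
      ≤ 4 * (n : ℝ) ^ 2 * (|β| * (√(n : ℝ))⁻¹) * θ := by
    rw [abs_mul, abs_mul, abs_mul, abs_neg, abs_of_nonneg hθ, abs_of_nonneg hr0]
    have a1 : |dW n β p g| * θ ≤ 4 * (n : ℝ) ^ 2 * (|β| * (√(n : ℝ))⁻¹) * θ :=
      mul_le_mul_of_nonneg_right hD hθ
    have a2 : |dW n β p g| * θ * corrSq (gibbs n β g) ^ (-θ - 1)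
        ≤ 4 * (n : ℝ) ^ 2 * (|β| * (√(n : ℝ))⁻¹) * θ * 1 :=
      mul_le_mul a1 hr1 hr0 (by positivity)
    have a3 : |dW n β p g| * θ * corrSq (gibbs n β g) ^ (-θ - 1) * |corr (gibbs n β g) p|
        ≤ 4 * (n : ℝ) ^ 2 * (|β| * (√(n : ℝ))⁻¹) * θ * 1 * 1 :=
      mul_le_mul a2 hc (abs_nonneg _) (by positivity)
    linarith
  have t2 : |wt n β θ g * (β * (√(n : ℝ))⁻¹ * (1 - corr (gibbs n β g) p ^ 2))|
      ≤ |β| * (√(n : ℝ))⁻¹ := by
    rw [abs_mul, abs_mul, abs_mul, abs_of_nonneg hw0, abs_of_nonneg hs]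
    have h2 : |1 - corr (gibbs n β g) p ^ 2| ≤ 1 := by
      rw [abs_le]; constructor <;> linarith
    have b1 : |β| * (√(n : ℝ))⁻¹ * |1 - corr (gibbs n β g) p ^ 2| ≤ |β| * (√(n : ℝ))⁻¹ * 1 :=
      mul_le_mul_of_nonneg_left h2 hbs
    have b2 : wt n β θ g * (|β| * (√(n : ℝ))⁻¹ * |1 - corr (gibbs n β g) p ^ 2|)
        ≤ 1 * (|β| * (√(n : ℝ))⁻¹ * 1) :=
      mul_le_mul hw1 b1 (by positivity) (by norm_num)
    linarith
  calc |dW n β p g * (-θ) * corrSq (gibbs n β g) ^ (-θ - 1) * corr (gibbs n β g) p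
        + wt n β θ g * (β * (√(n : ℝ))⁻¹ * (1 - corr (gibbs n β g) p ^ 2))|
      ≤ |dW n β p g * (-θ) * corrSq (gibbs n β g) ^ (-θ - 1) * corr (gibbs n β g) p|
        + |wt n β θ g * (β * (√(n : ℝ))⁻¹ * (1 - corr (gibbs n β g) p ^ 2))| := abs_add_le _ _
    _ ≤ 1 + 4 * (n : ℝ) ^ 2 * (|β| * (√(n : ℝ))⁻¹) * θ + |β| * (√(n : ℝ))⁻¹ := by linarith

/-- Gaussian integration by parts for `W^(-θ) ⟨x_i x_j⟩`, `i < j`. -/
lemma stein_wt_corr (hn : 1 ≤ n) (β θ : ℝ) (hθ : 0 ≤ θ) (p : Fin n × Fin n) (hp : p.1 < p.2) :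
    ∫ g, g p * (wt n β θ g * corr (gibbs n β g) p) ∂(stdGauss (Fin n × Fin n))
      = ∫ g, dF n β θ p g ∂(stdGauss (Fin n × Fin n)) := by
  have hs : 0 ≤ (√(n : ℝ))⁻¹ := inv_nonneg.2 (Real.sqrt_nonneg _)
  have hbs : 0 ≤ |β| * (√(n : ℝ))⁻¹ := mul_nonneg (abs_nonneg _) hs
  refine stein_pi p (fun g => wt n β θ g * corr (gibbs n β g) p) (fun g => dF n β θ p g)
    ((continuous_wt hn β θ).mul (continuous_corr β p)).measurable
    (continuous_dF hn β θ p).measurable
    (1 + 4 * (n : ℝ) ^ 2 * (|β| * (√(n : ℝ))⁻¹) * θ + |β| * (√(n : ℝ))⁻¹)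
    (fun g => ?_) (fun g => abs_dF_le hn β θ hθ p g)
    (fun g u => wt_corr_hasDerivAt hn β θ p hp g u)
  have hw0 := (wt_pos hn β θ g).le
  have hw1 := wt_le_one hn β θ hθ g
  have hc := abs_corr_gibbs_le β p g
  rw [abs_mul, abs_of_nonneg hw0]
  have : wt n β θ g * |corr (gibbs n β g) p| ≤ 1 * 1 :=
    mul_le_mul hw1 hc (abs_nonneg _) (by norm_num)
  have h0 : 0 ≤ 4 * (n : ℝ) ^ 2 * (|β| * (√(n : ℝ))⁻¹) * θ := by positivity
  linarith

/-! ### Integrability -/

lemma integrable_wt (hn : 1 ≤ n) (β θ : ℝ) (hθ : 0 ≤ θ) :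
    Integrable (fun g : Fin n × Fin n → ℝ => wt n β θ g) (stdGauss (Fin n × Fin n)) := by
  refine Integrable.of_bound (continuous_wt hn β θ).measurable.aestronglyMeasurable 1
    (ae_of_all _ fun g => ?_)
  rw [Real.norm_eq_abs, abs_of_pos (wt_pos hn β θ g)]
  exact wt_le_one hn β θ hθ g

lemma integrable_wt_mul_corrSq (hn : 1 ≤ n) (β θ : ℝ) (hθ : 0 ≤ θ) :
    Integrable (fun g : Fin n × Fin n → ℝ => wt n β θ g * corrSq (gibbs n β g))
      (stdGauss (Fin n × Fin n)) := by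
  refine Integrable.of_bound
    ((continuous_wt hn β θ).mul (continuous_corrSq β)).measurable.aestronglyMeasurable
    ((n : ℝ) ^ 2) (ae_of_all _ fun g => ?_)
  have hW0 : 0 ≤ corrSq (gibbs n β g) := le_trans zero_le_one (one_le_corrSq hn β g)
  rw [Real.norm_eq_abs, abs_of_nonneg (mul_nonneg (wt_pos hn β θ g).le hW0)]
  calc wt n β θ g * corrSq (gibbs n β g) ≤ 1 * (n : ℝ) ^ 2 :=
        mul_le_mul (wt_le_one hn β θ hθ g) (corrSq_le β g) hW0 (by norm_num)
    _ = (n : ℝ) ^ 2 := one_mul _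

lemma integrable_coord_mul_wt_corr (hn : 1 ≤ n) (β θ : ℝ) (hθ : 0 ≤ θ) (p : Fin n × Fin n) :
    Integrable (fun g : Fin n × Fin n → ℝ => g p * (wt n β θ g * corr (gibbs n β g) p))
      (stdGauss (Fin n × Fin n)) := by
  have hid : Integrable (fun g : Fin n × Fin n → ℝ => g p) (stdGauss (Fin n × Fin n)) :=
    integrable_eval (μ := fun _ : Fin n × Fin n => gaussianReal 0 1) (i := p)
      (memLp_id_gaussianReal 1 |>.integrable le_rfl)
  have hcont : Continuous (fun g : Fin n × Fin n → ℝ => wt n β θ g * corr (gibbs n β g) p) :=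
    (continuous_wt hn β θ).mul (continuous_corr β p)
  have := Integrable.bdd_mul (c := 1) hid hcont.measurable.aestronglyMeasurable
    (ae_of_all _ fun g => by
      show ‖wt n β θ g * corr (gibbs n β g) p‖ ≤ 1
      rw [Real.norm_eq_abs, abs_mul, abs_of_pos (wt_pos hn β θ g)]
      exact mul_le_one₀ (wt_le_one hn β θ hθ g) (abs_nonneg _) (abs_corr_gibbs_le β p g))
  refine this.congr (ae_of_all _ fun g => ?_)
  simp [mul_comm]

lemma integrable_dF (hn : 1 ≤ n) (β θ : ℝ) (hθ : 0 ≤ θ) (p : Fin n × Fin n) :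
    Integrable (fun g : Fin n × Fin n → ℝ => dF n β θ p g) (stdGauss (Fin n × Fin n)) := by
  refine Integrable.of_bound (continuous_dF hn β θ p).measurable.aestronglyMeasurable
    (1 + 4 * (n : ℝ) ^ 2 * (|β| * (√(n : ℝ))⁻¹) * θ + |β| * (√(n : ℝ))⁻¹)
    (ae_of_all _ fun g => ?_)
  rw [Real.norm_eq_abs]
  exact abs_dF_le hn β θ hθ p g

/-! ### The integration-by-parts inequality -/

/-- Pointwise lower bound for the sum over pairs of the derivatives. -/
lemma sum_dF_ge (hn : 1 ≤ n) (β θ : ℝ) (hβ : 0 ≤ β) (hθ : 0 ≤ θ) (g : Fin n × Fin n → ℝ) :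
    β * (√(n : ℝ))⁻¹ * ((n : ℝ) ^ 2 / 2 - 2 * θ * (n : ℝ) ^ 2) * wt n β θ g
      - β * (√(n : ℝ))⁻¹ / 2 * (wt n β θ g * corrSq (gibbs n β g))
    ≤ ∑ p ∈ upper n, dF n β θ p g := by
  have hs0 : 0 ≤ (√(n : ℝ))⁻¹ := inv_nonneg.2 (Real.sqrt_nonneg _)
  have hW1 : 1 ≤ corrSq (gibbs n β g) := one_le_corrSq hn β g
  have hWpos : 0 < corrSq (gibbs n β g) := lt_of_lt_of_le one_pos hW1
  have hw'0 : 0 ≤ corrSq (gibbs n β g) ^ (-θ - 1) := (Real.rpow_pos_of_pos hWpos _).le
  have hww' : corrSq (gibbs n β g) ^ (-θ - 1) * corrSq (gibbs n β g) = wt n β θ g := by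
    unfold wt
    rw [Real.rpow_sub_one hWpos.ne']
    field_simp
  have hn0 : (0 : ℝ) ≤ n := Nat.cast_nonneg n
  have hWeq := corrSq_eq_upper β g
  have hm := numPairs_eq n
  have hm0 := numPairs_nonneg n
  have hS0 : 0 ≤ ∑ p ∈ upper n, corr (gibbs n β g) p ^ 2 :=
    Finset.sum_nonneg fun p _ => sq_nonneg _
  have hterm : ∀ p ∈ upper n,
      -(θ * corrSq (gibbs n β g) ^ (-θ - 1)) * (2 * β * (√(n : ℝ))⁻¹ *
          ((n : ℝ) ^ 2 * corr (gibbs n β g) p ^ 2 + corrSq (gibbs n β g)))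
        + wt n β θ g * (β * (√(n : ℝ))⁻¹ * (1 - corr (gibbs n β g) p ^ 2))
      ≤ dF n β θ p g := by
    intro p _
    have h1 := abs_corr_mul_dW_le β hβ p g
    have h3 := (le_abs_self _).trans h1
    have h4 := mul_le_mul_of_nonneg_left h3 (mul_nonneg hθ hw'0)
    unfold dF
    have e : dW n β p g * (-θ) * corrSq (gibbs n β g) ^ (-θ - 1) * corr (gibbs n β g) p
        = -(θ * corrSq (gibbs n β g) ^ (-θ - 1) * (corr (gibbs n β g) p * dW n β p g)) := by
      ring
    rw [e]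
    linarith
  have hsum : ∑ p ∈ upper n,
      (-(θ * corrSq (gibbs n β g) ^ (-θ - 1)) * (2 * β * (√(n : ℝ))⁻¹ *
          ((n : ℝ) ^ 2 * corr (gibbs n β g) p ^ 2 + corrSq (gibbs n β g)))
        + wt n β θ g * (β * (√(n : ℝ))⁻¹ * (1 - corr (gibbs n β g) p ^ 2)))
      = (-(θ * corrSq (gibbs n β g) ^ (-θ - 1)) * (2 * β * (√(n : ℝ))⁻¹ * corrSq (gibbs n β g))
          + wt n β θ g * (β * (√(n : ℝ))⁻¹)) * numPairs n
        + (-(θ * corrSq (gibbs n β g) ^ (-θ - 1)) * (2 * β * (√(n : ℝ))⁻¹ * (n : ℝ) ^ 2)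
          - wt n β θ g * (β * (√(n : ℝ))⁻¹)) * ∑ p ∈ upper n, corr (gibbs n β g) p ^ 2 := by
    rw [← sum_upper_one, Finset.mul_sum, Finset.mul_sum, ← Finset.sum_add_distrib]
    refine Finset.sum_congr rfl fun p _ => ?_
    ring
  refine le_trans ?_ (Finset.sum_le_sum hterm)
  rw [hsum]
  set W := corrSq (gibbs n β g) with hW
  set w' := W ^ (-θ - 1) with hw'
  set S := ∑ p ∈ upper n, corr (gibbs n β g) p ^ 2 with hS
  set s := (√(n : ℝ))⁻¹ with hs
  set m := numPairs n with hmdef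
  have hkey : W * m + (n : ℝ) ^ 2 * S ≤ (n : ℝ) ^ 2 * W := by
    have e1 : m = ((n : ℝ) ^ 2 - n) / 2 := by linarith
    have e2 : S = (W - n) / 2 := by linarith
    rw [e1, e2]
    nlinarith [mul_nonneg hn0 hWpos.le, pow_nonneg hn0 3]
  have hk : 0 ≤ θ * w' * (2 * β * s) := by positivity
  have h5 := mul_le_mul_of_nonneg_left hkey hk
  have e3 : m - S = ((n : ℝ) ^ 2 - W) / 2 := by linarith
  rw [← hww']
  have e4 : β * s * ((n : ℝ) ^ 2 / 2 - 2 * θ * (n : ℝ) ^ 2) * (w' * W) - β * s / 2 * (w' * W * W)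
      = w' * W * (β * s) * (((n : ℝ) ^ 2 - W) / 2) - θ * w' * (2 * β * s) * ((n : ℝ) ^ 2 * W) := by
    ring
  have e5 : (-(θ * w') * (2 * β * s * W) + w' * W * (β * s)) * m
        + (-(θ * w') * (2 * β * s * (n : ℝ) ^ 2) - w' * W * (β * s)) * S
      = w' * W * (β * s) * (m - S) - θ * w' * (2 * β * s) * (W * m + (n : ℝ) ^ 2 * S) := by
    ring
  rw [e4, e5, e3]
  linarith

/-- Pointwise upper bound for the weighted mean energy by the partition function at `2 √(log 2)`. -/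
lemma wt_energy_le (hn : 1 ≤ n) (β θ : ℝ) (hθ : 0 ≤ θ) (g : Fin n × Fin n → ℝ) :
    (√(n : ℝ))⁻¹ * ∑ p ∈ upper n, g p * (wt n β θ g * corr (gibbs n β g) p)
      ≤ (n * √(Real.log 2)) * wt n β θ g + (2 * √(Real.log 2))⁻¹ *
        (partitionFn n (2 * √(Real.log 2)) g /
          Real.exp (2 * √(Real.log 2) * (n * √(Real.log 2)))) := by
  set r := √(Real.log 2) with hr
  have hlog : 0 < Real.log 2 := Real.log_pos (by norm_num)
  have hrpos : 0 < r := Real.sqrt_pos.2 hlog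
  set a := Real.exp (2 * r * (n * r)) with ha
  have hapos : 0 < a := Real.exp_pos _
  have h1 := avgEnergy_le β (2 * r) a (by positivity) hapos g
  have h2 : avgEnergy n β g = (√(n : ℝ))⁻¹ * ∑ p ∈ upper n, g p * corr (gibbs n β g) p := by
    rw [avgEnergy_eq, sum_upper]
  have h3 : (√(n : ℝ))⁻¹ * ∑ p ∈ upper n, g p * (wt n β θ g * corr (gibbs n β g) p)
      = wt n β θ g * avgEnergy n β g := by
    rw [h2, Finset.mul_sum, Finset.mul_sum, Finset.mul_sum]
    refine Finset.sum_congr rfl fun p _ => ?_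
    ring
  rw [h3]
  have hw0 := wt_pos hn β θ g
  have hw1 := wt_le_one hn β θ hθ g
  have hZ := partitionFn_pos n (2 * r) g
  have hloga : Real.log a = 2 * r * (n * r) := by rw [ha, Real.log_exp]
  rw [hloga] at h1
  have h4 : (2 * r)⁻¹ * (partitionFn n (2 * r) g / a - 1 + 2 * r * (n * r))
      ≤ (2 * r)⁻¹ * (partitionFn n (2 * r) g / a) + n * r := by
    have e : (2 * r)⁻¹ * (2 * r * (n * r)) = n * r := by field_simp
    have h5 : 0 < (2 * r)⁻¹ := by positivity
    have e2 : (2 * r)⁻¹ * (partitionFn n (2 * r) g / a - 1 + 2 * r * (n * r))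
        = (2 * r)⁻¹ * (partitionFn n (2 * r) g / a) - (2 * r)⁻¹ + (2 * r)⁻¹ * (2 * r * (n * r)) := by
      ring
    rw [e2, e]
    linarith
  have hX : 0 ≤ (2 * r)⁻¹ * (partitionFn n (2 * r) g / a) := by positivity
  have h6 : avgEnergy n β g ≤ (2 * r)⁻¹ * (partitionFn n (2 * r) g / a) + n * r := h1.trans h4
  have h7 := mul_le_mul_of_nonneg_left h6 hw0.le
  have h8 := mul_nonneg (sub_nonneg.2 hw1) hX
  nlinarith

/-- The annealed partition function at `2 √(log 2)` is at most `4^n`. -/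
lemma integral_partitionFn_le (hn : 1 ≤ n) :
    ∫ g, partitionFn n (2 * √(Real.log 2)) g ∂(stdGauss (Fin n × Fin n))
      ≤ Real.exp (2 * √(Real.log 2) * (n * √(Real.log 2))) := by
  set r := √(Real.log 2) with hr
  have hlog : 0 < Real.log 2 := Real.log_pos (by norm_num)
  have hr2 : r ^ 2 = Real.log 2 := Real.sq_sqrt hlog.le
  have hnpos : (0 : ℝ) < n := by exact_mod_cast hn
  have hss : (√(n : ℝ))⁻¹ * (√(n : ℝ))⁻¹ = (n : ℝ)⁻¹ := by
    rw [← mul_inv, Real.mul_self_sqrt hnpos.le]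
  rw [integral_partitionFn, hss]
  have h2 : (2 : ℝ) ^ n = Real.exp (n * r ^ 2) := by
    rw [hr2, Real.exp_nat_mul, Real.exp_log (by norm_num)]
  rw [h2, ← Real.exp_add]
  refine Real.exp_le_exp.2 ?_
  have hm := numPairs_le n
  have hm0 := numPairs_nonneg n
  have h3 : (2 * r) ^ 2 * (n : ℝ)⁻¹ * numPairs n / 2 ≤ n * r ^ 2 := by
    have e : (2 * r) ^ 2 * (n : ℝ)⁻¹ * numPairs n / 2 = 2 * r ^ 2 * (numPairs n / n) := by
      field_simp
    rw [e]
    have h4 : numPairs n / n ≤ n / 2 := by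
      rw [div_le_iff₀ hnpos]
      nlinarith
    nlinarith [sq_nonneg r]
  nlinarith

/-- The key inequality from Gaussian integration by parts: for `θ ≥ 0`, `β ≥ 0`,
`E[W^(-θ) ((β/n)((n² - W)/2 - 2 θ n²) - n √(log 2))] ≤ 1/(2 √(log 2))`. -/
lemma ibp_ineq (hn : 1 ≤ n) (β θ : ℝ) (hβ : 0 ≤ β) (hθ : 0 ≤ θ) :
    ∫ g, wt n β θ g * (β / n * (((n : ℝ) ^ 2 - corrSq (gibbs n β g)) / 2 - 2 * θ * (n : ℝ) ^ 2)
        - n * √(Real.log 2)) ∂(stdGauss (Fin n × Fin n))
      ≤ (2 * √(Real.log 2))⁻¹ := by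
  set r := √(Real.log 2) with hr
  have hlog : 0 < Real.log 2 := Real.log_pos (by norm_num)
  have hrpos : 0 < r := Real.sqrt_pos.2 hlog
  have hnpos : (0 : ℝ) < n := by exact_mod_cast hn
  have hs0 : 0 ≤ (√(n : ℝ))⁻¹ := inv_nonneg.2 (Real.sqrt_nonneg _)
  have hss : (√(n : ℝ))⁻¹ * (√(n : ℝ))⁻¹ = (n : ℝ)⁻¹ := by
    rw [← mul_inv, Real.mul_self_sqrt hnpos.le]
  have hwt := integrable_wt hn β θ hθ
  have hwtW := integrable_wt_mul_corrSq hn β θ hθ
  have hI1 : ∀ p ∈ upper n, Integrable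
      (fun g : Fin n × Fin n → ℝ => g p * (wt n β θ g * corr (gibbs n β g) p))
      (stdGauss (Fin n × Fin n)) := fun p _ => integrable_coord_mul_wt_corr hn β θ hθ p
  have hI2 : ∀ p ∈ upper n, Integrable (fun g : Fin n × Fin n → ℝ => dF n β θ p g)
      (stdGauss (Fin n × Fin n)) := fun p _ => integrable_dF hn β θ hθ p
  have hA : ∫ g, ∑ p ∈ upper n, g p * (wt n β θ g * corr (gibbs n β g) p)
        ∂(stdGauss (Fin n × Fin n))
      = ∫ g, ∑ p ∈ upper n, dF n β θ p g ∂(stdGauss (Fin n × Fin n)) := by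
    rw [integral_finsetSum _ hI1, integral_finsetSum _ hI2]
    exact Finset.sum_congr rfl fun p hp => stein_wt_corr hn β θ hθ p (mem_upper.1 hp)
  have hI3 : Integrable (fun g : Fin n × Fin n → ℝ =>
      β * (√(n : ℝ))⁻¹ * ((n : ℝ) ^ 2 / 2 - 2 * θ * (n : ℝ) ^ 2) * wt n β θ g
        - β * (√(n : ℝ))⁻¹ / 2 * (wt n β θ g * corrSq (gibbs n β g)))
      (stdGauss (Fin n × Fin n)) := (hwt.const_mul _).sub (hwtW.const_mul _)
  have hB := integral_mono hI3 (integrable_finsetSum _ hI2)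
    (fun g => sum_dF_ge hn β θ hβ hθ g)
  have hZint := integrable_partitionFn (n := n) (2 * r)
  have hI4 : Integrable (fun g : Fin n × Fin n → ℝ =>
      (n * r) * wt n β θ g + (2 * r)⁻¹ *
        (partitionFn n (2 * r) g / Real.exp (2 * r * (n * r))))
      (stdGauss (Fin n × Fin n)) :=
    (hwt.const_mul _).add ((hZint.div_const _).const_mul _)
  have hD := integral_mono ((integrable_finsetSum _ hI1).const_mul (√(n : ℝ))⁻¹) hI4
    (fun g => wt_energy_le hn β θ hθ g)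
  rw [integral_const_mul, hA] at hD
  rw [integral_add (hwt.const_mul _) ((hZint.div_const _).const_mul _), integral_const_mul,
    integral_const_mul, integral_div] at hD
  have hE := integral_partitionFn_le (n := n) hn
  have hE' : (∫ g, partitionFn n (2 * r) g ∂(stdGauss (Fin n × Fin n)))
      / Real.exp (2 * r * (n * r)) ≤ 1 := by
    rw [div_le_one (Real.exp_pos _)]
    exact hE
  have e : ∀ g : Fin n × Fin n → ℝ,
      wt n β θ g * (β / n * (((n : ℝ) ^ 2 - corrSq (gibbs n β g)) / 2 - 2 * θ * (n : ℝ) ^ 2)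
        - n * r)
      = (√(n : ℝ))⁻¹ * (β * (√(n : ℝ))⁻¹ * ((n : ℝ) ^ 2 / 2 - 2 * θ * (n : ℝ) ^ 2) * wt n β θ g
        - β * (√(n : ℝ))⁻¹ / 2 * (wt n β θ g * corrSq (gibbs n β g))) - (n * r) * wt n β θ g := by
    intro g
    have e1 : β / n = β * ((√(n : ℝ))⁻¹ * (√(n : ℝ))⁻¹) := by rw [hss]; ring
    rw [e1]
    ring
  simp_rw [e]
  rw [integral_sub (hI3.const_mul _) (hwt.const_mul _), integral_const_mul, integral_const_mul]
  have h9 := mul_le_mul_of_nonneg_left hB hs0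
  have h10 : 0 < (2 * r)⁻¹ := by positivity
  have h11 := mul_le_mul_of_nonneg_left hE' h10.le
  linarith

/-! ### The tail bound for the squared overlap -/

/-- Pointwise lower bound for the integrand of `ibp_ineq`. -/
lemma tail_pointwise (hn : 1 ≤ n) (β r c θ K : ℝ) (hβpos : 0 < β) (hcpos : 0 < c)
    (hθ : θ = c / 16) (hr' : r = (β - β * c) / 2) (hK : 0 < K) (hcK : 4 ≤ c * K)
    (g : Fin n × Fin n → ℝ) :
    n * (β * c / 4) * ((n : ℝ) ^ 2 / K) ^ (-θ) *
        ({g | corrSq (gibbs n β g) ≤ (n : ℝ) ^ 2 / K} : Set (Fin n × Fin n → ℝ)).indicator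
          (fun _ => (1 : ℝ)) g
      - n * β / 2 * (c * (n : ℝ) ^ 2 / 4) ^ (-θ)
    ≤ wt n β θ g *
      (β / n * (((n : ℝ) ^ 2 - corrSq (gibbs n β g)) / 2 - 2 * θ * (n : ℝ) ^ 2) - n * r) := by
  have hnpos : (0 : ℝ) < n := by exact_mod_cast hn
  have hθ0 : 0 ≤ θ := by rw [hθ]; positivity
  have hNpos : 0 < (n : ℝ) ^ 2 := by positivity
  have ha₁pos : 0 < (n : ℝ) ^ 2 / K := div_pos hNpos hK
  have ha₂pos : 0 < c * (n : ℝ) ^ 2 / 4 := by positivity
  have ha12 : (n : ℝ) ^ 2 / K ≤ c * (n : ℝ) ^ 2 / 4 := by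
    rw [div_le_iff₀ hK]
    nlinarith
  have hbr : β / n * (((n : ℝ) ^ 2 - corrSq (gibbs n β g)) / 2 - 2 * θ * (n : ℝ) ^ 2) - n * r
      = 3 / 8 * (n * (β * c)) - β * corrSq (gibbs n β g) / (2 * n) := by
    rw [hr', hθ]
    field_simp
    ring
  rw [hbr]
  have hW1 := one_le_corrSq hn β g
  have hWpos : 0 < corrSq (gibbs n β g) := lt_of_lt_of_le one_pos hW1
  have hWle := corrSq_le β g
  have hw0 := wt_pos hn β θ g
  have ha2θ : 0 < (c * (n : ℝ) ^ 2 / 4) ^ (-θ) := Real.rpow_pos_of_pos ha₂pos _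
  have ha1θ : 0 < ((n : ℝ) ^ 2 / K) ^ (-θ) := Real.rpow_pos_of_pos ha₁pos _
  have h4 : 0 ≤ n * β / 2 * (c * (n : ℝ) ^ 2 / 4) ^ (-θ) := by positivity
  have hlow : -(n * β / 2)
      ≤ 3 / 8 * (n * (β * c)) - β * corrSq (gibbs n β g) / (2 * n) := by
    have h1 : β * corrSq (gibbs n β g) / (2 * n) ≤ n * β / 2 := by
      rw [div_le_iff₀ (by positivity)]
      nlinarith
    have h2 : 0 ≤ n * (β * c) := by positivity
    linarith
  have hgood : corrSq (gibbs n β g) ≤ c * (n : ℝ) ^ 2 / 4 →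
      n * (β * c / 4) ≤ 3 / 8 * (n * (β * c)) - β * corrSq (gibbs n β g) / (2 * n) := by
    intro h
    have h1 : β * corrSq (gibbs n β g) / (2 * n) ≤ n * (β * c) / 8 := by
      rw [div_le_iff₀ (by positivity)]
      nlinarith
    linarith
  by_cases hg : g ∈ ({g | corrSq (gibbs n β g) ≤ (n : ℝ) ^ 2 / K} : Set (Fin n × Fin n → ℝ))
  · rw [Set.indicator_of_mem hg]
    have hgA : corrSq (gibbs n β g) ≤ (n : ℝ) ^ 2 / K := hg
    have h1 := hgood (hgA.trans ha12)
    have h2 : ((n : ℝ) ^ 2 / K) ^ (-θ) ≤ wt n β θ g :=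
      Real.rpow_le_rpow_of_nonpos hWpos hgA (by linarith)
    have h3 : ((n : ℝ) ^ 2 / K) ^ (-θ) * (n * (β * c / 4)) ≤ wt n β θ g *
        (3 / 8 * (n * (β * c)) - β * corrSq (gibbs n β g) / (2 * n)) :=
      mul_le_mul h2 h1 (by positivity) hw0.le
    linarith
  · rw [Set.indicator_of_notMem hg]
    by_cases h2 : corrSq (gibbs n β g) ≤ c * (n : ℝ) ^ 2 / 4
    · have h1 := hgood h2
      have h0 : 0 ≤ n * (β * c / 4) := by positivity
      have h3 : 0 ≤ wt n β θ g *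
          (3 / 8 * (n * (β * c)) - β * corrSq (gibbs n β g) / (2 * n)) :=
        mul_nonneg hw0.le (le_trans h0 h1)
      linarith
    · push Not at h2
      have h5 : wt n β θ g ≤ (c * (n : ℝ) ^ 2 / 4) ^ (-θ) :=
        Real.rpow_le_rpow_of_nonpos ha₂pos h2.le (by linarith)
      have h6 := mul_le_mul_of_nonneg_left hlow hw0.le
      have h7 : 0 ≤ n * β / 2 := by positivity
      have h8 := mul_le_mul_of_nonneg_right h5 h7
      linarith

/-- The algebra turning the integrated inequality into the tail bound. -/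
lemma tail_algebra (ν β r c θ K P : ℝ) (hn1 : 1 ≤ ν) (hrpos : 0 < r) (hβpos : 0 < β)
    (hrβ : 1 ≤ r * β) (hcpos : 0 < c) (hc1 : c < 1) (hθ : θ = c / 16) (hK : 0 < K)
    (hmain : ν * (β * c / 4) * (ν ^ 2 / K) ^ (-θ) * P
      - ν * β / 2 * (c * ν ^ 2 / 4) ^ (-θ) ≤ (2 * r)⁻¹) :
    P ≤ 10 / c ^ 2 * K ^ (-θ) := by
  have hnpos : 0 < ν := lt_of_lt_of_le one_pos hn1
  have hNpos : 0 < ν ^ 2 := by positivity
  have hN1 : 1 ≤ ν ^ 2 := by nlinarith
  have hkpos : 0 < K ^ (-θ) := Real.rpow_pos_of_pos hK _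
  have hypos : 0 < (ν ^ 2) ^ (-θ) := Real.rpow_pos_of_pos hNpos _
  have hzpos : 0 < (c / 4) ^ (-θ) := Real.rpow_pos_of_pos (by positivity) _
  have e1 : (ν ^ 2 / K) ^ (-θ) = (ν ^ 2) ^ (-θ) / K ^ (-θ) :=
    Real.div_rpow hNpos.le hK.le _
  have e2 : (c * ν ^ 2 / 4) ^ (-θ) = (c / 4) ^ (-θ) * (ν ^ 2) ^ (-θ) := by
    rw [show c * ν ^ 2 / 4 = c / 4 * ν ^ 2 by ring, Real.mul_rpow (by positivity) hNpos.le]
  have hz4 : (c / 4) ^ (-θ) ≤ 4 / c := by
    have h1 : (c / 4) ^ (-θ) ≤ (c / 4) ^ (-1 : ℝ) :=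
      Real.rpow_le_rpow_of_exponent_ge (by positivity) (by linarith) (by linarith)
    rw [Real.rpow_neg_one] at h1
    have : (c / 4)⁻¹ = 4 / c := by field_simp
    linarith
  have hny : 1 ≤ ν * (ν ^ 2) ^ (-θ) := by
    have h1 : (ν ^ 2) ^ (-(1 / 2) : ℝ) ≤ (ν ^ 2) ^ (-θ) :=
      Real.rpow_le_rpow_of_exponent_le hN1 (by linarith)
    have h2 : (ν ^ 2) ^ (-(1 / 2) : ℝ) = ν⁻¹ := by
      rw [← Real.rpow_natCast ν 2, ← Real.rpow_mul hnpos.le]
      norm_num
      exact Real.rpow_neg_one _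
    rw [h2] at h1
    calc (1 : ℝ) = ν * ν⁻¹ := by field_simp
      _ ≤ ν * (ν ^ 2) ^ (-θ) := mul_le_mul_of_nonneg_left h1 hnpos.le
  have h2r : (2 * r)⁻¹ ≤ β / 2 := by
    rw [inv_le_iff_one_le_mul₀ (by positivity)]
    linarith
  rw [e1, e2] at hmain
  generalize (ν ^ 2) ^ (-θ) = y at hmain hypos hny
  generalize K ^ (-θ) = k at hmain hkpos ⊢
  generalize (c / 4) ^ (-θ) = z at hmain hzpos hz4
  have h10 : ν * (β * c / 4) * y * P ≤ k * (ν * β / 2 * (4 / c) * y + β / 2 * (ν * y)) := by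
    have h11 : ν * (β * c / 4) * (y / k) * P = (ν * (β * c / 4) * y * P) / k := by ring
    rw [h11] at hmain
    have h12 : ν * (β * c / 4) * y * P / k ≤ ν * β / 2 * (z * y) + (2 * r)⁻¹ := by linarith
    rw [div_le_iff₀ hkpos] at h12
    have h13 : ν * β / 2 * (z * y) ≤ ν * β / 2 * (4 / c) * y := by
      have h0 : 0 ≤ ν * β / 2 * y := by positivity
      have := mul_le_mul_of_nonneg_left hz4 h0
      linarith
    have h14 : (2 * r)⁻¹ ≤ β / 2 * (ν * y) := by
      have h0 : 0 ≤ β / 2 := by positivity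
      have := mul_le_mul_of_nonneg_left hny h0
      linarith
    calc ν * (β * c / 4) * y * P ≤ (ν * β / 2 * (z * y) + (2 * r)⁻¹) * k := h12
      _ ≤ (ν * β / 2 * (4 / c) * y + β / 2 * (ν * y)) * k :=
          mul_le_mul_of_nonneg_right (by linarith) hkpos.le
      _ = k * (ν * β / 2 * (4 / c) * y + β / 2 * (ν * y)) := by ring
  have h15 : k * (ν * β / 2 * (4 / c) * y + β / 2 * (ν * y))
      = (ν * (β * c / 4) * y) * (k * (8 / c ^ 2 + 2 / c)) := by
    field_simp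
    ring
  rw [h15] at h10
  have h16 : P ≤ k * (8 / c ^ 2 + 2 / c) := le_of_mul_le_mul_left h10 (by positivity)
  have h17 : 8 / c ^ 2 + 2 / c ≤ 10 / c ^ 2 := by
    have h18 : 2 / c ≤ 2 / c ^ 2 := by
      apply div_le_div_of_nonneg_left (by norm_num) (by positivity)
      nlinarith
    have h19 : 8 / c ^ 2 + 2 / c ^ 2 = 10 / c ^ 2 := by ring
    linarith
  calc P ≤ k * (8 / c ^ 2 + 2 / c) := h16
    _ ≤ k * (10 / c ^ 2) := mul_le_mul_of_nonneg_left h17 hkpos.le
    _ = 10 / c ^ 2 * k := mul_comm _ _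

/-- The integrated inequality: `n b a₁^(-θ) P(W ≤ a₁) - (n β / 2) a₂^(-θ) ≤ 1/(2 √(log 2))`. -/
lemma tail_integrated (hn : 1 ≤ n) (β c θ K : ℝ) (hβpos : 0 < β) (hcpos : 0 < c)
    (hθ : θ = c / 16) (hr' : √(Real.log 2) = (β - β * c) / 2) (hK : 0 < K) (hcK : 4 ≤ c * K) :
    n * (β * c / 4) * ((n : ℝ) ^ 2 / K) ^ (-θ) *
        (stdGauss (Fin n × Fin n)).real {g | corrSq (gibbs n β g) ≤ (n : ℝ) ^ 2 / K}
      - n * β / 2 * (c * (n : ℝ) ^ 2 / 4) ^ (-θ) ≤ (2 * √(Real.log 2))⁻¹ := by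
  have hθ0 : 0 ≤ θ := by rw [hθ]; positivity
  have hAm : MeasurableSet ({g | corrSq (gibbs n β g) ≤ (n : ℝ) ^ 2 / K} :
      Set (Fin n × Fin n → ℝ)) :=
    measurableSet_le (continuous_corrSq β).measurable measurable_const
  have hJint : Integrable (fun g : Fin n × Fin n → ℝ => wt n β θ g *
      (β / n * (((n : ℝ) ^ 2 - corrSq (gibbs n β g)) / 2 - 2 * θ * (n : ℝ) ^ 2)
        - n * √(Real.log 2)))
      (stdGauss (Fin n × Fin n)) := by
    have h := ((integrable_wt hn β θ hθ0).const_mul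
      (β / n * ((n : ℝ) ^ 2 / 2 - 2 * θ * (n : ℝ) ^ 2) - n * √(Real.log 2))).sub
      ((integrable_wt_mul_corrSq hn β θ hθ0).const_mul (β / n / 2))
    refine h.congr (ae_of_all _ fun g => ?_)
    show (β / n * ((n : ℝ) ^ 2 / 2 - 2 * θ * (n : ℝ) ^ 2) - n * √(Real.log 2)) * wt n β θ g
      - β / n / 2 * (wt n β θ g * corrSq (gibbs n β g)) = _
    ring
  have hind : Integrable (fun g : Fin n × Fin n → ℝ =>
      n * (β * c / 4) * ((n : ℝ) ^ 2 / K) ^ (-θ) *
        ({g | corrSq (gibbs n β g) ≤ (n : ℝ) ^ 2 / K} : Set (Fin n × Fin n → ℝ)).indicator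
          (fun _ => (1 : ℝ)) g
        - n * β / 2 * (c * (n : ℝ) ^ 2 / 4) ^ (-θ)) (stdGauss (Fin n × Fin n)) :=
    (((integrable_const (1 : ℝ)).indicator hAm).const_mul _).sub (integrable_const _)
  have hmono := integral_mono hind hJint
    (fun g => tail_pointwise hn β (√(Real.log 2)) c θ K hβpos hcpos hθ hr' hK hcK g)
  have hlhs : ∫ g, (n * (β * c / 4) * ((n : ℝ) ^ 2 / K) ^ (-θ) *
        ({g | corrSq (gibbs n β g) ≤ (n : ℝ) ^ 2 / K} : Set (Fin n × Fin n → ℝ)).indicator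
          (fun _ => (1 : ℝ)) g
        - n * β / 2 * (c * (n : ℝ) ^ 2 / 4) ^ (-θ)) ∂(stdGauss (Fin n × Fin n))
      = n * (β * c / 4) * ((n : ℝ) ^ 2 / K) ^ (-θ) *
          (stdGauss (Fin n × Fin n)).real {g | corrSq (gibbs n β g) ≤ (n : ℝ) ^ 2 / K}
        - n * β / 2 * (c * (n : ℝ) ^ 2 / 4) ^ (-θ) := by
    rw [integral_sub (((integrable_const (1 : ℝ)).indicator hAm).const_mul _)
      (integrable_const _), integral_const_mul, integral_indicator hAm, integral_const,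
      integral_const]
    simp
  rw [← hlhs]
  exact hmono.trans (ibp_ineq hn β θ hβpos.le hθ0)

/-- For `β > 2 √(log 2)` and `c = 1 - 2 √(log 2)/β`, the disorder probability that the squared
overlap `W = ∑_{i,j} ⟨x_i x_j⟩²` is at most `n²/K` is at most `(10/c²) K^(-c/16)`. -/
lemma measure_corrSq_le (hn : 1 ≤ n) (β : ℝ) (hβ : 2 * √(Real.log 2) < β) (K : ℝ) (hK : 0 < K) :
    (stdGauss (Fin n × Fin n)).real {g | corrSq (gibbs n β g) ≤ (n : ℝ) ^ 2 / K}
      ≤ 10 / (1 - 2 * √(Real.log 2) / β) ^ 2 * K ^ (-((1 - 2 * √(Real.log 2) / β) / 16)) := by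
  have hlog : 0 < Real.log 2 := Real.log_pos (by norm_num)
  have hrpos : 0 < √(Real.log 2) := Real.sqrt_pos.2 hlog
  have hr2 : √(Real.log 2) ^ 2 = Real.log 2 := Real.sq_sqrt hlog.le
  have hβpos : 0 < β := by linarith
  have hcpos : 0 < 1 - 2 * √(Real.log 2) / β := by
    rw [sub_pos, div_lt_one hβpos]
    exact hβ
  have hc1 : 1 - 2 * √(Real.log 2) / β < 1 := by
    have : 0 < 2 * √(Real.log 2) / β := by positivity
    linarith
  have hβc : β * (1 - 2 * √(Real.log 2) / β) = β - 2 * √(Real.log 2) := by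
    field_simp
  have hn1 : (1 : ℝ) ≤ n := by exact_mod_cast hn
  have hrβ : 1 ≤ √(Real.log 2) * β := by
    have hl : (1 : ℝ) / 2 < Real.log 2 := by
      have := Real.log_two_gt_d9
      linarith
    have h1 : √(Real.log 2) * (2 * √(Real.log 2)) < √(Real.log 2) * β :=
      mul_lt_mul_of_pos_left hβ hrpos
    have h2 : √(Real.log 2) * (2 * √(Real.log 2)) = 2 * √(Real.log 2) ^ 2 := by ring
    rw [h2, hr2] at h1
    linarith
  generalize hcdef : 1 - 2 * √(Real.log 2) / β = c at hcpos hc1 hβc ⊢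
  have hkpos : 0 < K ^ (-(c / 16)) := Real.rpow_pos_of_pos hK _
  by_cases hcase : K < 4 / c
  · have h1 : (4 / c) ^ (-(c / 16)) ≤ K ^ (-(c / 16)) :=
      Real.rpow_le_rpow_of_nonpos hK hcase.le (by linarith)
    have h4c : 1 ≤ 4 / c := by
      rw [le_div_iff₀ hcpos]
      linarith
    have h2 : (4 / c) ^ (-1 : ℝ) ≤ (4 / c) ^ (-(c / 16)) :=
      Real.rpow_le_rpow_of_exponent_le h4c (by linarith)
    rw [Real.rpow_neg_one] at h2
    have h3 : c / 4 ≤ K ^ (-(c / 16)) := by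
      have : (4 / c)⁻¹ = c / 4 := by field_simp
      linarith
    have h5 : (1 : ℝ) ≤ 10 / c ^ 2 * (c / 4) := by
      have : 10 / c ^ 2 * (c / 4) = 5 / (2 * c) := by
        field_simp
        ring
      rw [this, le_div_iff₀ (by positivity)]
      linarith
    calc (stdGauss (Fin n × Fin n)).real {g | corrSq (gibbs n β g) ≤ (n : ℝ) ^ 2 / K}
        ≤ 1 := measureReal_le_one
      _ ≤ 10 / c ^ 2 * (c / 4) := h5
      _ ≤ 10 / c ^ 2 * K ^ (-(c / 16)) := mul_le_mul_of_nonneg_left h3 (by positivity)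
  · push Not at hcase
    have hcK : 4 ≤ c * K := by
      rw [div_le_iff₀ hcpos] at hcase
      linarith
    have hr' : √(Real.log 2) = (β - β * c) / 2 := by linarith
    have hmain := tail_integrated hn β c (c / 16) K hβpos hcpos rfl hr' hK hcK
    exact tail_algebra (n : ℝ) β (√(Real.log 2)) c (c / 16) K _ hn1 hrpos hβpos hrβ hcpos hc1 rfl
      hK hmain

/-! ### Slow relaxation and slow mixing with high probability -/

/-- For `β > 2 √(log 2)`, `c = 1 - 2 √(log 2)/β`, every `n ≥ 1` and every `K > 0`: with disorder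
probability at least `1 - (10/c²) K^(-c/16)` the spectral gap is at most `K/n` and no time below
`log 2 · n / K` is a total-variation mixing time. -/
theorem slow_mixing_whp (hn : 1 ≤ n) (β : ℝ) (hβ : 2 * √(Real.log 2) < β) (K : ℝ) (hK : 0 < K) :
    ENNReal.ofReal (1 - 10 / (1 - 2 * √(Real.log 2) / β) ^ 2 *
        K ^ (-((1 - 2 * √(Real.log 2) / β) / 16))) ≤
      (Measure.pi (fun _ : Fin n × Fin n => gaussianReal 0 1))
        {g | spectralGap (gibbs n β g) ≤ K / n ∧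
          ∀ t : ℝ, 0 ≤ t → t < Real.log 2 * (n / K) →
            ∃ x, 1 / 4 < tvDist (gibbs n β g) t x} := by
  have hnpos : (0 : ℝ) < n := by exact_mod_cast hn
  have hapos : 0 < (n : ℝ) ^ 2 / K := by positivity
  have hAm : MeasurableSet ({g | corrSq (gibbs n β g) ≤ (n : ℝ) ^ 2 / K} :
      Set (Fin n × Fin n → ℝ)) :=
    measurableSet_le (continuous_corrSq β).measurable measurable_const
  have hsub : ({g | corrSq (gibbs n β g) ≤ (n : ℝ) ^ 2 / K} : Set (Fin n × Fin n → ℝ))ᶜ ⊆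
      {g | spectralGap (gibbs n β g) ≤ K / n ∧
        ∀ t : ℝ, 0 ≤ t → t < Real.log 2 * (n / K) →
          ∃ x, 1 / 4 < tvDist (gibbs n β g) t x} := by
    intro g hg
    have hg' : (n : ℝ) ^ 2 / K < corrSq (gibbs n β g) := not_le.1 hg
    refine ⟨?_, ?_⟩
    · have h1 := spectralGap_le_corrSq hn β g
      have h2 : (n : ℝ) / corrSq (gibbs n β g) ≤ n / ((n : ℝ) ^ 2 / K) :=
        div_le_div_of_nonneg_left hnpos.le hapos hg'.le
      have h3 : (n : ℝ) / ((n : ℝ) ^ 2 / K) = K / n := by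
        field_simp
      rw [← h3]
      exact h1.trans h2
    · intro t ht hlt
      refine not_mixed_of_corrSq β g ((n : ℝ) ^ 2 / K) hapos hg'.le t ht ?_
      calc t * n < Real.log 2 * (n / K) * n := mul_lt_mul_of_pos_right hlt hnpos
        _ = Real.log 2 * ((n : ℝ) ^ 2 / K) := by ring
  have hreal := measure_corrSq_le hn β hβ K hK
  have hcompl : (stdGauss (Fin n × Fin n)).real
      ({g | corrSq (gibbs n β g) ≤ (n : ℝ) ^ 2 / K} : Set (Fin n × Fin n → ℝ))ᶜ
      = 1 - (stdGauss (Fin n × Fin n)).real {g | corrSq (gibbs n β g) ≤ (n : ℝ) ^ 2 / K} :=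
    probReal_compl_eq_one_sub hAm
  calc ENNReal.ofReal (1 - 10 / (1 - 2 * √(Real.log 2) / β) ^ 2 *
        K ^ (-((1 - 2 * √(Real.log 2) / β) / 16)))
      ≤ (stdGauss (Fin n × Fin n))
          ({g | corrSq (gibbs n β g) ≤ (n : ℝ) ^ 2 / K} : Set (Fin n × Fin n → ℝ))ᶜ := by
        rw [ENNReal.ofReal_le_iff_le_toReal (measure_ne_top _ _)]
        show _ ≤ (stdGauss (Fin n × Fin n)).real _
        rw [hcompl]
        linarith
    _ ≤ _ := measure_mono hsub

/-- For `β > 2 √(log 2)` and any sequence `K n → ∞`: with disorder probability tending to one,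
the spectral gap is at most `K n / n` and no time below `log 2 · n / K n` is a mixing time. -/
theorem slow_mixing_tendsto (β : ℝ) (hβ : 2 * √(Real.log 2) < β) (K : ℕ → ℝ)
    (hK : Filter.Tendsto K Filter.atTop Filter.atTop) :
    Filter.Tendsto (fun n : ℕ => (Measure.pi (fun _ : Fin n × Fin n => gaussianReal 0 1))
        {g | spectralGap (gibbs n β g) ≤ K n / n ∧
          ∀ t : ℝ, 0 ≤ t → t < Real.log 2 * (n / K n) →
            ∃ x, 1 / 4 < tvDist (gibbs n β g) t x}) Filter.atTop (nhds 1) := by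
  have hlog : 0 < Real.log 2 := Real.log_pos (by norm_num)
  have hrpos : 0 < √(Real.log 2) := Real.sqrt_pos.2 hlog
  have hβpos : 0 < β := by linarith
  have hcpos : 0 < 1 - 2 * √(Real.log 2) / β := by
    rw [sub_pos, div_lt_one hβpos]
    exact hβ
  have h1 : Filter.Tendsto (fun n : ℕ => K n ^ (-((1 - 2 * √(Real.log 2) / β) / 16)))
      Filter.atTop (nhds 0) :=
    (tendsto_rpow_neg_atTop (by positivity : 0 < (1 - 2 * √(Real.log 2) / β) / 16)).comp hK
  have h2 : Filter.Tendsto (fun n : ℕ => ENNReal.ofReal (1 - 10 / (1 - 2 * √(Real.log 2) / β) ^ 2 *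
      K n ^ (-((1 - 2 * √(Real.log 2) / β) / 16)))) Filter.atTop (nhds 1) := by
    have h3 : Filter.Tendsto (fun n : ℕ => 1 - 10 / (1 - 2 * √(Real.log 2) / β) ^ 2 *
        K n ^ (-((1 - 2 * √(Real.log 2) / β) / 16))) Filter.atTop
        (nhds (1 - 10 / (1 - 2 * √(Real.log 2) / β) ^ 2 * 0)) :=
      tendsto_const_nhds.sub (h1.const_mul _)
    have h4 := ENNReal.tendsto_ofReal h3
    simpa using h4
  refine tendsto_of_tendsto_of_tendsto_of_le_of_le' h2 tendsto_const_nhds ?_ ?_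
  · filter_upwards [Filter.eventually_ge_atTop 1, hK.eventually_gt_atTop 0] with n hn hKn
    exact slow_mixing_whp hn β hβ (K n) hKn
  · exact Filter.Eventually.of_forall fun n => prob_le_one

end Vale.Agent.H40.SK
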